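import Mathlib

/-! Random hashing: characters `cos (2 π n τ)` which imitate the order relation `j ≤ i`. -/

namespace Vale.Agent.P091

open Finset Real

/-- The fractional error of `2 ^ p / 2 ^ (c + 1)`. -/
noncomputable def er (p c : ℕ) : ℝ := if p ≤ c then (1 / 2) ^ (c - p + 1) else 0

lemma er_nonneg (p c : ℕ) : 0 ≤ er p c := by unfold er; split_ifs <;> positivity

lemma sum_er_le (p r : ℕ) : ∑ c ∈ range r, er p c ≤ 1 := by
  have h : ∀ r, ∑ c ∈ range r, er p c = if p ≤ r then 1 - (1 / 2) ^ (r - p) else 0 := by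
    intro r
    induction r with
    | zero =>
      split_ifs with h
      · simp
      · simp
    | succ r ih =>
      rw [Finset.sum_range_succ, ih]
      unfold er
      by_cases h : p ≤ r
      · rw [if_pos h, if_pos h, if_pos (by omega), show r + 1 - p = r - p + 1 by omega, pow_succ]
        ring
      · rw [if_neg h, if_neg h]
        split_ifs with h'
        · rw [show r + 1 - p = 0 by omega]; simp
        · simp
  rw [h]
  split_ifs
  · have : (0 : ℝ) ≤ (1 / 2) ^ (r - p) := by positivity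
    linarith
  · norm_num

lemma sum_hash_pair {κ : Type} [Fintype κ] [DecidableEq κ] (r : ℕ) (s t : κ) (hst : s ≠ t) :
    (r : ℝ) * ∑ h : κ → Fin r, er (h s) (h t) ≤ Fintype.card (κ → Fin r) := by
  have e1 : (r : ℝ) * ∑ h : κ → Fin r, er (h s) (h t)
      = ∑ q : (κ → Fin r) × Fin r, er (q.1 s) (q.1 t) := by
    rw [Fintype.sum_prod_type, Finset.mul_sum]
    simp
  have e2 : ∑ q : (κ → Fin r) × Fin r, er (q.1 s) (q.1 t)
      = ∑ q : (κ → Fin r) × Fin r, er (q.1 s) q.2 := by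
    have inv : Function.Involutive
        (fun q : (κ → Fin r) × Fin r => (Function.update q.1 t q.2, q.1 t)) := by
      intro q; simp
    refine Fintype.sum_bijective _ inv.bijective _ _ fun q => ?_
    simp [Function.update_of_ne hst]
  rw [e1, e2, Fintype.sum_prod_type]
  calc ∑ h : κ → Fin r, ∑ c : Fin r, er (h s) c ≤ ∑ _h : κ → Fin r, (1 : ℝ) := by
        refine Finset.sum_le_sum fun h _ => ?_
        rw [Fin.sum_univ_eq_sum_range (fun c => er (h s) c) r]
        exact sum_er_le _ _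
    _ = _ := by simp

lemma exists_hash {γ κ : Type} [DecidableEq κ] (r : ℕ) (hr : 0 < r) (C : Finset γ) (s t : γ → κ)
    (W : γ → ℝ) (hW : ∀ c ∈ C, 0 ≤ W c) :
    ∃ h : κ → ℕ, (∀ a, h a < r) ∧
      ∑ c ∈ C, W c * (if s c = t c then 0 else er (h (s c)) (h (t c))) ≤ (∑ c ∈ C, W c) / r := by
  classical
  set X : Finset κ := C.image s ∪ C.image t with hX
  have hs : ∀ c ∈ C, s c ∈ X := fun c hc => mem_union_left _ (mem_image_of_mem s hc)
  have ht : ∀ c ∈ C, t c ∈ X := fun c hc => mem_union_right _ (mem_image_of_mem t hc)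
  let ext : (X → Fin r) → κ → ℕ := fun h a => if ha : a ∈ X then h ⟨a, ha⟩ else 0
  have hr' : (0 : ℝ) < r := by exact_mod_cast hr
  have : Nonempty (Fin r) := ⟨⟨0, hr⟩⟩
  have key : ∑ h : X → Fin r,
      ∑ c ∈ C, W c * (if s c = t c then 0 else er (ext h (s c)) (ext h (t c)))
      ≤ ∑ _h : X → Fin r, (∑ c ∈ C, W c) / r := by
    rw [Finset.sum_comm, Finset.sum_const, Finset.card_univ, nsmul_eq_mul, Finset.sum_div,
      Finset.mul_sum]
    refine Finset.sum_le_sum fun c hc => ?_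
    rw [← Finset.mul_sum, mul_comm (Fintype.card (X → Fin r) : ℝ), div_mul_eq_mul_div,
      mul_div_assoc]
    refine mul_le_mul_of_nonneg_left ?_ (hW c hc)
    by_cases e : s c = t c
    · simp only [if_pos e, Finset.sum_const_zero]
      positivity
    · simp only [if_neg e]
      rw [le_div_iff₀ hr', mul_comm]
      have := sum_hash_pair (κ := X) r ⟨s c, hs c hc⟩ ⟨t c, ht c hc⟩
        (fun h => e (congrArg Subtype.val h))
      simpa [ext, hs c hc, ht c hc] using this
  obtain ⟨h, _, hh⟩ := Finset.exists_le_of_sum_le Finset.univ_nonempty key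
  refine ⟨ext h, fun a => ?_, hh⟩
  simp only [ext]
  split_ifs
  · exact Fin.is_lt _
  · exact hr

/-- The order relation as a count of dyadic matches. -/
lemma sum_match (L : ℕ) : ∀ u v : ℕ, u < 2 ^ L → v < 2 ^ L →
    ∑ a ∈ range L, (if (u / 2 ^ a % 2 = 1 ∧ v / 2 ^ a % 2 = 0 ∧ u / 2 ^ a = v / 2 ^ a + 1)
      then 1 else 0 : ℕ) = if v < u then 1 else 0 := by
  induction L with
  | zero =>
    intro u v hu hv
    simp only [pow_zero] at hu hv
    rw [if_neg (by omega)]; simp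
  | succ L ih =>
    intro u v hu hv
    rw [Finset.sum_range_succ']
    have e : ∀ w a : ℕ, w / 2 ^ (a + 1) = w / 2 / 2 ^ a := by
      intro w a; rw [Nat.div_div_eq_div_mul, pow_succ']
    simp only [e]
    rw [ih (u / 2) (v / 2) (by rw [pow_succ] at hu; omega) (by rw [pow_succ] at hv; omega)]
    simp only [pow_zero, Nat.div_one]
    split_ifs <;> omega

lemma near_sum {γ : Type} (C : Finset γ) (t q e : γ → ℝ)
    (h : ∀ c ∈ C, ∃ m : ℤ, |t c - m - q c| ≤ e c) :
    ∃ m : ℤ, |∑ c ∈ C, t c - m - ∑ c ∈ C, q c| ≤ ∑ c ∈ C, e c := by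
  choose! m hm using h
  refine ⟨∑ c ∈ C, m c, ?_⟩
  push_cast
  rw [← Finset.sum_sub_distrib, ← Finset.sum_sub_distrib]
  exact (Finset.abs_sum_le_sum_abs _ _).trans (Finset.sum_le_sum hm)

lemma near_term (p c : ℕ) : ∃ m : ℤ, |(2 : ℝ) ^ p * (1 / 2) ^ (c + 1) - m - 0| ≤ er p c := by
  unfold er
  split_ifs with h
  · refine ⟨0, le_of_eq ?_⟩
    obtain ⟨k, rfl⟩ := Nat.exists_eq_add_of_le h
    rw [Nat.add_sub_cancel_left, add_assoc, pow_add, ← mul_assoc, ← mul_pow]
    simp
  · refine ⟨2 ^ (p - (c + 1)), le_of_eq ?_⟩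
    obtain ⟨k, rfl⟩ := Nat.exists_eq_add_of_le (show c + 1 ≤ p by omega)
    rw [Nat.add_sub_cancel_left, pow_add, mul_right_comm, ← mul_pow]
    simp

def kx (i a : ℕ) : ℕ × ℕ := (a, (i + 1) / 2 ^ a)

def ky (j b : ℕ) : ℕ × ℕ := (b, j / 2 ^ b + 1)

def nn (L : ℕ) (h : ℕ × ℕ → ℕ) (i : ℕ) : ℕ :=
  ∑ a ∈ range L, if (i + 1) / 2 ^ a % 2 = 1 then 2 ^ h (kx i a) else 0

noncomputable def sg (L : ℕ) (h : ℕ × ℕ → ℕ) (j : ℕ) : ℝ :=
  ∑ b ∈ range L, if j / 2 ^ b % 2 = 0 then (1 / 2) ^ (h (ky j b) + 1) else 0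

noncomputable def err (L : ℕ) (h : ℕ × ℕ → ℕ) (i j : ℕ) : ℝ :=
  ∑ c ∈ range L ×ˢ range L,
    if kx i c.1 = ky j c.2 then 0 else er (h (kx i c.1)) (h (ky j c.2))

lemma cos_near (L : ℕ) (h : ℕ × ℕ → ℕ) (i j : ℕ) (hi : i + 1 < 2 ^ L) (hj : j < 2 ^ L) :
    |cos (2 * π * (nn L h i * Int.fract (sg L h j))) - (if j ≤ i then -1 else 1)|
      ≤ 2 * π * err L h i j := by
  obtain ⟨m, hm⟩ := near_sum (range L ×ˢ range L)
    (fun c => ((if (i + 1) / 2 ^ c.1 % 2 = 1 then 2 ^ h (kx i c.1) else 0 : ℕ) : ℝ) *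
      (if j / 2 ^ c.2 % 2 = 0 then (1 / 2) ^ (h (ky j c.2) + 1) else 0))
    (fun c => if (i + 1) / 2 ^ c.1 % 2 = 1 ∧ j / 2 ^ c.2 % 2 = 0 ∧ kx i c.1 = ky j c.2
      then 1 / 2 else 0)
    (fun c => if kx i c.1 = ky j c.2 then 0 else er (h (kx i c.1)) (h (ky j c.2))) (by
      intro c _
      have he : 0 ≤ (if kx i c.1 = ky j c.2 then 0 else er (h (kx i c.1)) (h (ky j c.2))) := by
        split_ifs
        · exact le_rfl
        · exact er_nonneg _ _
      by_cases h1 : (i + 1) / 2 ^ c.1 % 2 = 1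
      · by_cases h2 : j / 2 ^ c.2 % 2 = 0
        · by_cases h3 : kx i c.1 = ky j c.2
          · refine ⟨0, ?_⟩
            simp only [h1, h2, h3, if_true, and_self]
            push_cast
            rw [pow_succ, ← mul_assoc, ← mul_pow]
            simp
          · simp only [h1, h2, h3, if_true, if_false, and_false]
            push_cast
            exact near_term _ _
        · refine ⟨0, ?_⟩
          simpa [h2] using he
      · refine ⟨0, ?_⟩
        simpa [h1] using he)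
  have e1 : ∑ c ∈ range L ×ˢ range L,
      ((if (i + 1) / 2 ^ c.1 % 2 = 1 then 2 ^ h (kx i c.1) else 0 : ℕ) : ℝ) *
      (if j / 2 ^ c.2 % 2 = 0 then (1 / 2 : ℝ) ^ (h (ky j c.2) + 1) else 0)
      = nn L h i * sg L h j := by
    unfold nn sg
    rw [Nat.cast_sum, Finset.sum_mul_sum, Finset.sum_product]
  have e2 : ∑ c ∈ range L ×ˢ range L,
      (if (i + 1) / 2 ^ c.1 % 2 = 1 ∧ j / 2 ^ c.2 % 2 = 0 ∧ kx i c.1 = ky j c.2
        then 1 / 2 else 0 : ℝ) = if j ≤ i then 1 / 2 else 0 := by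
    have h1 := sum_match L (i + 1) j hi hj
    have h2 : ∑ a ∈ range L, (if ((i + 1) / 2 ^ a % 2 = 1 ∧ j / 2 ^ a % 2 = 0 ∧
        (i + 1) / 2 ^ a = j / 2 ^ a + 1) then 1 else 0 : ℝ) = if j < i + 1 then 1 else 0 := by
      exact_mod_cast h1
    rw [Finset.sum_product]
    have h3 : ∀ a ∈ range L, ∑ b ∈ range L,
        (if (i + 1) / 2 ^ a % 2 = 1 ∧ j / 2 ^ b % 2 = 0 ∧ kx i a = ky j b then 1 / 2 else 0 : ℝ)
        = 1 / 2 * (if ((i + 1) / 2 ^ a % 2 = 1 ∧ j / 2 ^ a % 2 = 0 ∧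
          (i + 1) / 2 ^ a = j / 2 ^ a + 1) then 1 else 0 : ℝ) := by
      intro a ha
      rw [Finset.sum_eq_single a]
      · simp [kx, ky]
      · intro b _ hb
        rw [if_neg]
        rintro ⟨_, _, h⟩
        exact hb (congrArg Prod.fst h).symm
      · intro h; exact absurd ha h
    rw [Finset.sum_congr rfl h3, ← Finset.mul_sum, h2]
    simp only [Nat.lt_add_one_iff]
    split_ifs <;> simp
  rw [e1, e2] at hm
  have e3 : (if j ≤ i then -1 else 1 : ℝ) =
      cos (2 * π * (if j ≤ i then 1 / 2 else 0) + ((m - nn L h i * ⌊sg L h j⌋ : ℤ) : ℝ) * (2 * π)) := by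
    rw [Real.cos_add_int_mul_two_pi]
    split_ifs
    · rw [show 2 * π * (1 / 2) = π by ring, cos_pi]
    · simp
  rw [e3]
  refine (Real.abs_cos_sub_cos_le _ _).trans ?_
  have e4 : 2 * π * (nn L h i * Int.fract (sg L h j)) - (2 * π * (if j ≤ i then 1 / 2 else 0) +
      ((m - nn L h i * ⌊sg L h j⌋ : ℤ) : ℝ) * (2 * π))
      = 2 * π * (nn L h i * sg L h j - m - (if j ≤ i then 1 / 2 else 0)) := by
    unfold Int.fract
    push_cast
    ring
  rw [e4, abs_mul, abs_of_pos (by positivity : 0 < 2 * π)]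
  exact mul_le_mul_of_nonneg_left hm (by positivity)

/-- The weight of the pair `(i, j)`. -/
noncomputable def wt (i j : ℕ) : ℝ := 1 / (|(i : ℝ) - j| + 1)

lemma wt_pos (i j : ℕ) : 0 < wt i j := by unfold wt; positivity

/-- The hashing lemma. -/
theorem hash_lemma (K r : ℕ) (hr : 0 < r) (ε : ℝ) (hε : 0 < ε) :
    ∃ (n : ℕ → ℕ) (τ : ℕ → ℝ) (Bad : Finset ℕ), (∀ i, n i ≤ (K + 1) * 2 ^ r) ∧
      (∀ j, 0 ≤ τ j ∧ τ j < 1) ∧ (∀ j, ∃ m : ℤ, 2 ^ r * τ j = m) ∧
      (Bad.card : ℝ) ≤ 2 ^ K * (2 * π * (K + 1) ^ 2 / r / ε) ∧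
      ∀ i, i < 2 ^ K → i ∉ Bad →
        ∑ j ∈ range (2 ^ K), wt i j * |cos (2 * π * (n i * τ j)) - (if j ≤ i then -1 else 1)|
          ≤ ε * ∑ j ∈ range (2 ^ K), wt i j := by
  classical
  set M : ℕ := 2 ^ K with hM
  set L : ℕ := K + 1 with hL
  have hM0 : 0 < M := by positivity
  set H : ℕ → ℝ := fun i => ∑ j ∈ range M, wt i j with hH
  have hH0 : ∀ i, 0 < H i := fun i =>
    Finset.sum_pos (fun j _ => wt_pos i j) ⟨0, Finset.mem_range.mpr hM0⟩
  obtain ⟨h, hh1, hh2⟩ := exists_hash r hr (range M ×ˢ range M ×ˢ range L ×ˢ range L)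
    (fun c => kx c.1 c.2.2.1) (fun c => ky c.2.1 c.2.2.2) (fun c => wt c.1 c.2.1 / H c.1)
    (fun c _ => div_nonneg (wt_pos _ _).le (hH0 _).le)
  have e1 : ∑ c ∈ range M ×ˢ range M ×ˢ range L ×ˢ range L, wt c.1 c.2.1 / H c.1
      = M * (L : ℝ) ^ 2 := by
    rw [Finset.sum_product]
    have : ∀ i ∈ range M, ∑ c ∈ range M ×ˢ range L ×ˢ range L, wt i c.1 / H i = (L : ℝ) ^ 2 := by
      intro i _
      rw [Finset.sum_product]
      simp only [Finset.sum_const, Finset.card_product, Finset.card_range, nsmul_eq_mul]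
      rw [← Finset.mul_sum, ← Finset.sum_div, div_self (hH0 i).ne']
      push_cast; ring
    rw [Finset.sum_congr rfl this]
    simp
  set F : ℕ → ℝ := fun i => (∑ j ∈ range M, wt i j * err L h i j) / H i with hF
  have e2 : ∑ c ∈ range M ×ˢ range M ×ˢ range L ×ˢ range L, wt c.1 c.2.1 / H c.1 *
      (if kx c.1 c.2.2.1 = ky c.2.1 c.2.2.2 then 0
        else er (h (kx c.1 c.2.2.1)) (h (ky c.2.1 c.2.2.2))) = ∑ i ∈ range M, F i := by
    rw [Finset.sum_product]
    refine Finset.sum_congr rfl fun i _ => ?_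
    rw [Finset.sum_product, hF]
    dsimp only
    rw [Finset.sum_div]
    refine Finset.sum_congr rfl fun j _ => ?_
    rw [← Finset.mul_sum]
    unfold err
    ring
  rw [e1, e2] at hh2
  have hF0 : ∀ i, 0 ≤ F i := fun i => div_nonneg (Finset.sum_nonneg fun j _ =>
    mul_nonneg (wt_pos _ _).le (Finset.sum_nonneg fun c _ => by
      split_ifs
      · exact le_rfl
      · exact er_nonneg _ _)) (hH0 i).le
  refine ⟨nn L h, fun j => Int.fract (sg L h j), (range M).filter (fun i => ε < 2 * π * F i),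
    ?_, fun j => ⟨Int.fract_nonneg _, Int.fract_lt_one _⟩, ?_, ?_, ?_⟩
  · intro i
    unfold nn
    calc _ ≤ ∑ _a ∈ range L, 2 ^ r := by
          refine Finset.sum_le_sum fun a _ => ?_
          split_ifs
          · exact Nat.pow_le_pow_right (by norm_num) (hh1 _).le
          · exact Nat.zero_le _
      _ = _ := by simp
  · intro j
    refine ⟨(∑ b ∈ range L, if j / 2 ^ b % 2 = 0 then 2 ^ (r - (h (ky j b) + 1)) else 0)
      - 2 ^ r * ⌊sg L h j⌋, ?_⟩
    unfold Int.fract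
    push_cast
    rw [mul_sub]
    congr 1
    unfold sg
    rw [Finset.mul_sum]
    refine Finset.sum_congr rfl fun b _ => ?_
    split_ifs
    · obtain ⟨k, hk⟩ := Nat.exists_eq_add_of_le (show h (ky j b) + 1 ≤ r from hh1 _)
      rw [hk, Nat.add_sub_cancel_left, pow_add, mul_right_comm, ← mul_pow]
      simp
    · simp
  · have h1 : (((range M).filter (fun i => ε < 2 * π * F i)).card : ℝ) * ε
        ≤ 2 * π * ∑ i ∈ range M, F i := by
      rw [Finset.mul_sum, ← nsmul_eq_mul, ← Finset.sum_const]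
      calc _ ≤ ∑ i ∈ (range M).filter (fun i => ε < 2 * π * F i), 2 * π * F i :=
            Finset.sum_le_sum fun i hi => (Finset.mem_filter.mp hi).2.le
        _ ≤ _ := Finset.sum_le_sum_of_subset_of_nonneg (Finset.filter_subset _ _)
            fun i _ _ => mul_nonneg (by positivity) (hF0 i)
    have h2 : 2 * π * ∑ i ∈ range M, F i ≤ 2 * π * (M * (L : ℝ) ^ 2 / r) := by gcongr
    rw [← mul_div_assoc, le_div_iff₀ hε]
    refine (h1.trans h2).trans (le_of_eq ?_)
    rw [hM, hL]; push_cast; ring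
  · intro i hi hb
    have h1 : 2 * π * F i ≤ ε := by
      by_contra h
      exact hb (Finset.mem_filter.mpr ⟨Finset.mem_range.mpr hi, not_le.mp h⟩)
    rw [hF] at h1
    dsimp only at h1
    rw [← mul_div_assoc, div_le_iff₀ (hH0 i), Finset.mul_sum] at h1
    refine le_trans (Finset.sum_le_sum fun j hj => ?_) h1
    have hj' := Finset.mem_range.mp hj
    have h2 := cos_near L h i j (by rw [hL, pow_succ]; omega) (by rw [hL, pow_succ]; omega)
    exact (mul_le_mul_of_nonneg_left h2 (wt_pos i j).le).trans (le_of_eq (by ring))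

lemma sum_wt_ge (K i : ℕ) (hi : i < 2 ^ K) :
    (K : ℝ) / 2 - 1 ≤ ∑ j ∈ range (2 ^ K), wt i j := by
  have hlog : ∀ m : ℕ, Real.log (m + 1) ≤ ∑ k ∈ range m, (1 / ((k : ℝ) + 1)) := by
    intro m
    have := log_add_one_le_harmonic m
    rw [harmonic] at this
    push_cast at this
    simpa [one_div] using this
  have h2 : (1 / 2 : ℝ) ≤ Real.log 2 := by linarith [Real.log_two_gt_d9]
  have hK : ∀ m : ℕ, 2 ^ K ≤ 2 * (m + 1) → (K : ℝ) / 2 - 1 ≤ Real.log (m + 1) := by
    intro m hm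
    have h3 : (2 : ℝ) ^ K ≤ 2 * (m + 1) := by exact_mod_cast hm
    have h4 := Real.log_le_log (by positivity) h3
    rw [Real.log_pow, Real.log_mul (by norm_num) (by positivity)] at h4
    have h5 : Real.log 2 ≤ 1 := by linarith [Real.log_two_lt_d9]
    have : (K : ℝ) * (1 / 2) ≤ K * Real.log 2 := by gcongr
    linarith
  by_cases h : 2 ^ K ≤ 2 * (i + 1)
  · refine (hK i h).trans ((hlog i).trans ?_)
    calc ∑ k ∈ range i, (1 / ((k : ℝ) + 1)) = ∑ j ∈ (range i).image (fun k => i - k), wt i j := by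
          rw [Finset.sum_image (fun a ha b hb e => by
            have := Finset.mem_range.mp ha
            have := Finset.mem_range.mp hb
            omega)]
          refine Finset.sum_congr rfl fun k hk => ?_
          unfold wt
          rw [Nat.cast_sub (Finset.mem_range.mp hk).le, sub_sub_cancel, Nat.abs_cast]
      _ ≤ _ := Finset.sum_le_sum_of_subset_of_nonneg (fun j hj => by
            obtain ⟨k, _, rfl⟩ := Finset.mem_image.mp hj
            exact Finset.mem_range.mpr (by omega)) fun j _ _ => (wt_pos i j).le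
  · refine (hK (2 ^ K - i) (by omega)).trans ((hlog _).trans ?_)
    calc ∑ k ∈ range (2 ^ K - i), (1 / ((k : ℝ) + 1))
        = ∑ j ∈ (range (2 ^ K - i)).image (fun k => i + k), wt i j := by
          rw [Finset.sum_image (fun a _ b _ e => by simpa using e)]
          refine Finset.sum_congr rfl fun k _ => ?_
          unfold wt
          push_cast
          rw [sub_add_cancel_left, abs_neg, Nat.abs_cast]
      _ ≤ _ := Finset.sum_le_sum_of_subset_of_nonneg (fun j hj => by
            obtain ⟨k, hk, rfl⟩ := Finset.mem_image.mp hj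
            have := Finset.mem_range.mp hk
            exact Finset.mem_range.mpr (by omega)) fun j _ _ => (wt_pos i j).le

end Vale.Agent.P091
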