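import Vale.Agent.P091.Kernel
import Vale.Agent.P091.Hash

/-! The building block: a nonnegative trigonometric polynomial of height `R` whose Fourier sums
reach `c √(log R)` outside a small set. -/

namespace Vale.Agent.P091

open Finset Real MeasureTheory

lemma cot_bounds (v η : ℝ) (hv : 0 < v) (hη : 0 < η) (hvη : v ≤ π * (1 - η)) :
    0 < sin v ∧ 1 / v - 1 - 1 / (2 * η) ≤ cos v / sin v ∧
      |cos v / sin v| ≤ π / (2 * v) + 1 / (2 * η) := by
  have hπ := Real.pi_pos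
  have hπ3 := Real.pi_gt_three
  have hπ4 := Real.pi_lt_four
  have hη' : 0 < 1 / (2 * η) := by positivity
  by_cases h : v ≤ π / 2
  · have h1 : 2 / π * v ≤ sin v := Real.mul_le_sin hv.le h
    have hs : 0 < sin v := lt_of_lt_of_le (by positivity) h1
    have h2 : sin v ≤ v := Real.sin_le hv.le
    have h3 : 0 ≤ cos v := Real.cos_nonneg_of_mem_Icc ⟨by linarith, h⟩
    have h4 : 1 - v ^ 2 / 2 ≤ cos v := Real.one_sub_sq_div_two_le_cos
    refine ⟨hs, ?_, ?_⟩
    · have h5 : cos v / v ≤ cos v / sin v := by gcongr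
      have h6 : 1 / v - 1 ≤ cos v / v := by
        rw [le_div_iff₀ hv, sub_mul, one_div_mul_cancel hv.ne']
        nlinarith
      linarith
    · have h5 : |cos v / sin v| ≤ π / (2 * v) := by
        rw [abs_div, abs_of_pos hs]
        calc |cos v| / sin v ≤ 1 / (2 / π * v) := by gcongr; exact Real.abs_cos_le_one v
          _ = π / (2 * v) := by field_simp
      linarith
  · push Not at h
    have h1 : 2 / π * (π - v) ≤ sin (π - v) := Real.mul_le_sin (by nlinarith) (by linarith)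
    rw [Real.sin_pi_sub] at h1
    have h2 : 2 * η ≤ 2 / π * (π - v) := by
      rw [div_mul_eq_mul_div, le_div_iff₀ hπ]; nlinarith
    have hs : 0 < sin v := by linarith
    have h5 : |cos v / sin v| ≤ 1 / (2 * η) := by
      rw [abs_div, abs_of_pos hs]
      gcongr
      · exact Real.abs_cos_le_one v
      · linarith
    refine ⟨hs, ?_, ?_⟩
    · have h6 : 1 / v ≤ 1 := by rw [div_le_one hv]; linarith
      linarith [(abs_le.mp h5).1]
    · have : 0 < π / (2 * v) := by positivity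
      linarith

lemma weight_bounds (M P i j : ℕ) (hP : 4 ≤ P) (hi : i < M) (hj : j < M) (τ t ξ : ℝ) (hτ0 : 0 ≤ τ)
    (hτ1 : τ < 1) (ht : M * t = i + ξ) (hξ0 : 2 / P ≤ ξ) (hξ1 : ξ ≤ 1 - 1 / P)
    (ht0 : 1 / P ≤ t) (ht1 : t ≤ 1 - 1 / P) (u : ℝ) (hu : u = 2 * π * t - 2 * π * ((j + τ / P) / M)) :
    sin (u / 2) ≠ 0 ∧
      wt i j / π - (1 + P / 2) / M ≤ (if j ≤ i then 1 else -1) * (cos (u / 2) / sin (u / 2) / M) ∧
      |cos (u / 2) / sin (u / 2) / M| ≤ 3 * P / 2 * wt i j := by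
  have hπ := Real.pi_pos
  have hM : (0 : ℝ) < M := by exact_mod_cast (show 0 < M by omega)
  have hP' : (4 : ℝ) ≤ P := by exact_mod_cast hP
  set η : ℝ := 1 / P with hη
  have hη0 : 0 < η := by positivity
  have hη1 : η ≤ 1 / 4 := by rw [hη]; gcongr
  have hηP : η * P = 1 := by rw [hη]; field_simp
  have hξ0' : 2 * η ≤ ξ := by rw [hη, mul_one_div]; exact hξ0
  have hτ2 : τ / P = τ * η := by rw [hη]; ring
  have hτ3 : 0 ≤ τ * η := by positivity
  have hτ4 : τ * η < η := mul_lt_of_lt_one_left hη0 hτ1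
  set d : ℝ := i + ξ - j - τ * η with hd
  have hud : u / 2 = π * d / M := by
    rw [hu, hτ2, hd, ← ht]; field_simp; ring
  have hi' : (i : ℝ) + 1 ≤ M := by exact_mod_cast hi
  have hj' : (j : ℝ) + 1 ≤ M := by exact_mod_cast hj
  have hi0 : (0 : ℝ) ≤ i := by positivity
  have hj0 : (0 : ℝ) ≤ j := by positivity
  set a : ℝ := |(i : ℝ) - j| + 1 with ha
  have ha0 : 0 < a := by positivity
  have hwt : wt i j = 1 / a := rfl
  have haM : a ≤ M := by
    rw [ha]
    have : |(i : ℝ) - j| ≤ M - 1 := abs_le.mpr ⟨by linarith, by linarith⟩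
    linarith
  obtain ⟨hd1, hd2, hd3⟩ : |d| ≤ a ∧ η * a ≤ 2 * |d| ∧
      (if j ≤ i then 1 else -1) * (cos (u / 2) / sin (u / 2))
        = cos (π * |d| / M) / sin (π * |d| / M) ∧ (sin (π * |d| / M) ≠ 0 → sin (u / 2) ≠ 0) := by
    by_cases h : j ≤ i
    · have h' : (j : ℝ) ≤ i := by exact_mod_cast h
      have hdp : 0 < d := by rw [hd]; linarith
      rw [if_pos h, abs_of_pos hdp, ha, abs_of_nonneg (by linarith), hud]
      refine ⟨by rw [hd]; linarith, ?_, one_mul _, id⟩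
      have := mul_le_mul_of_nonneg_right hη1 (sub_nonneg.mpr h')
      rw [hd]; linarith
    · have h' : (i : ℝ) + 1 ≤ j := by exact_mod_cast (show i + 1 ≤ j by omega)
      have hdn : d < 0 := by rw [hd]; linarith
      rw [if_neg h, abs_of_neg hdn, ha, abs_of_nonpos (by linarith), hud]
      have e : π * -d / M = -(π * d / M) := by ring
      refine ⟨by rw [hd]; linarith, ?_, ?_, ?_⟩
      · have := mul_le_mul_of_nonneg_right hη1 (sub_nonneg.mpr h')
        rw [hd]; linarith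
      · rw [e, Real.cos_neg, Real.sin_neg]; ring
      · rw [e, Real.sin_neg]; exact fun h => neg_ne_zero.mp h
  have hd0 : 0 < |d| := by linarith [mul_pos hη0 ha0]
  have hdM : |d| ≤ (1 - η) * M := by
    have e : d = M * t - (j + τ * η) := by rw [hd, ht]; ring
    have k1 := mul_le_mul_of_nonneg_left ht0 hM.le
    have k2 := mul_le_mul_of_nonneg_left ht1 hM.le
    rw [abs_le, e]
    constructor <;> linarith
  obtain ⟨h1, h2, h3⟩ := cot_bounds (π * |d| / M) η (by positivity) hη0 (by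
    rw [div_le_iff₀ hM, mul_assoc]; gcongr)
  have e2 : 1 / (2 * η) = P / 2 := by rw [hη]; field_simp
  rw [e2] at h2 h3
  refine ⟨hd3.2 h1.ne', ?_, ?_⟩
  · rw [← mul_div_assoc, hd3.1, le_div_iff₀ hM, sub_mul, div_mul_cancel₀ _ hM.ne']
    have : wt i j / π * M ≤ 1 / (π * |d| / M) := by
      rw [hwt]
      calc 1 / a / π * M = M / (π * a) := by field_simp
        _ ≤ M / (π * |d|) := by gcongr
        _ = _ := by field_simp
    linarith
  · have e3 : |cos (u / 2) / sin (u / 2)| = |cos (π * |d| / M) / sin (π * |d| / M)| := by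
      rw [← hd3.1, abs_mul]
      split_ifs <;> simp
    rw [abs_div, e3, abs_of_pos hM, div_le_iff₀ hM]
    refine h3.trans ?_
    have h4 : π / (2 * (π * |d| / M)) ≤ P * wt i j * M := by
      rw [hwt]
      calc π / (2 * (π * |d| / M)) = M / (2 * |d|) := by field_simp
        _ ≤ M / (η * a) := by gcongr
        _ = _ := by rw [hη]; field_simp
    have h5 : (P : ℝ) / 2 ≤ P / 2 * wt i j * M := by
      rw [hwt, mul_assoc, one_div_mul_eq_div]
      exact le_mul_of_one_le_right (by positivity) ((one_le_div ha0).mpr haM)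
    linarith

lemma fsum_lower (y θ : ℕ → ℝ) (M R N : ℕ) (hR : 0 < R) (x : ℝ)
    (hs : ∀ j < M, sin ((x - y j) / 2) ≠ 0) (hN : ∀ j, ∃ m : ℤ, N * y j = θ j + m * (2 * π)) :
    |(∑ j ∈ range M, cos (θ j) * (cos ((x - y j) / 2) / sin ((x - y j) / 2) / M)) * sin (N * x)
      - (∑ j ∈ range M, sin (θ j) * (cos ((x - y j) / 2) / sin ((x - y j) / 2) / M)) * cos (N * x)|
      ≤ ‖fsum (fun x => (fej y M R x : ℂ)) N x‖ + 1 + (2 * N + 1) * N / R := by
  have h1 := fsum_fej_approx y M R N hR x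
  rw [Finset.sum_congr rfl (fun j hj => dirichlet (x - y j) (hs j (Finset.mem_range.mp hj)) N),
    ← Complex.ofReal_sum, ← Complex.ofReal_natCast, ← Complex.ofReal_div] at h1
  have h2 := norm_le_norm_add_norm_sub' _ (fsum (fun x => (fej y M R x : ℂ)) N x) |>.trans
    (add_le_add le_rfl ((norm_sub_rev _ _).le.trans h1))
  rw [Complex.norm_real, Real.norm_eq_abs, Finset.sum_add_distrib, add_div] at h2
  have h3 : |(∑ j ∈ range M, cos (N * (x - y j))) / M| ≤ 1 := by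
    rw [abs_div, Nat.abs_cast]
    refine div_le_one_of_le₀ ((Finset.abs_sum_le_sum_abs _ _).trans ?_) (by positivity)
    calc _ ≤ ∑ _j ∈ range M, (1 : ℝ) := Finset.sum_le_sum fun j _ => Real.abs_cos_le_one _
      _ = M := by simp
  have e : (∑ j ∈ range M, cos (θ j) * (cos ((x - y j) / 2) / sin ((x - y j) / 2) / M)) * sin (N * x)
      - (∑ j ∈ range M, sin (θ j) * (cos ((x - y j) / 2) / sin ((x - y j) / 2) / M)) * cos (N * x)
      = (∑ j ∈ range M, sin (N * (x - y j)) * (cos ((x - y j) / 2) / sin ((x - y j) / 2))) / M := by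
    rw [Finset.sum_mul, Finset.sum_mul, ← Finset.sum_sub_distrib, Finset.sum_div]
    refine Finset.sum_congr rfl fun j _ => ?_
    obtain ⟨m, hm⟩ := hN j
    rw [mul_sub, hm, ← sub_sub, Real.sin_sub_int_mul_two_pi, Real.sin_sub]
    ring
  rw [e]
  rw [abs_le] at h2 h3 ⊢
  constructor <;> linarith [h2.1, h2.2, h3.1, h3.2]

lemma two_phase (A B α β : ℝ) :
    |A| * |sin β| ≤ |A * sin α - B * cos α| + |A * sin (α + β) - B * cos (α + β)| := by
  have e : A * sin β = (A * sin (α + β) - B * cos (α + β)) * cos α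
      - (A * sin α - B * cos α) * cos (α + β) := by
    have : sin β = sin (α + β) * cos α - cos (α + β) * sin α := by
      rw [← Real.sin_sub]; congr 1; ring
    rw [this]; ring
  rw [← abs_mul, e]
  refine (abs_sub _ _).trans ?_
  rw [abs_mul, abs_mul]
  have h1 := mul_le_of_le_one_right (abs_nonneg (A * sin (α + β) - B * cos (α + β)))
    (Real.abs_cos_le_one α)
  have h2 := mul_le_of_le_one_right (abs_nonneg (A * sin α - B * cos α))
    (Real.abs_cos_le_one (α + β))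
  linarith

lemma abs_sin_ge (s δ : ℝ) (h : ∀ m : ℤ, δ ≤ |s - m|) : δ ≤ |sin (π * s)| := by
  have h1 := h (round s)
  have h2 := abs_sub_round s
  have e : |sin (π * s)| = |sin (π * |s - round s|)| := by
    have e1 : π * s = π * (s - round s) + (round s : ℤ) * π := by ring
    rw [e1, Real.sin_add_int_mul_pi, abs_mul]
    have : |((-1 : ℝ) ^ (round s))| = 1 := by rw [abs_zpow]; simp
    rw [this, one_mul]
    rcases abs_cases (s - round s) with h | h
    · rw [h.1]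
    · rw [h.1, mul_neg, Real.sin_neg, abs_neg]
  rw [e]
  have h3 := Real.mul_le_sin (x := π * |s - round s|) (by positivity)
    (by nlinarith [Real.pi_pos])
  have h4 : 2 / π * (π * |s - round s|) = 2 * |s - round s| := by field_simp
  linarith [le_abs_self (sin (π * |s - round s|)), abs_nonneg (s - round s)]

/-- Points close to a lattice. -/
def nearZ (c : ℕ) (δ : ℝ) : Set ℝ := {x | ∃ m : ℤ, |c * (x / (2 * π)) - m| < δ}

lemma volume_nearZ (c : ℕ) (hc : 1 ≤ c) (δ : ℝ) (hδ0 : 0 ≤ δ) (hδ : δ ≤ 1) :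
    volume (nearZ c δ ∩ Set.Ioc 0 (2 * π)) ≤ ENNReal.ofReal (8 * π * δ) := by
  have hπ := Real.pi_pos
  have hc' : (1 : ℝ) ≤ c := by exact_mod_cast hc
  have hsub : nearZ c δ ∩ Set.Ioc 0 (2 * π) ⊆
      ⋃ m ∈ range (c + 1), Set.Ioo (2 * π * (m - δ) / c) (2 * π * (m + δ) / c) := by
    rintro x ⟨⟨m, hm⟩, hx0, hx1⟩
    have h0 : 0 < x / (2 * π) := by positivity
    have h1 : x / (2 * π) ≤ 1 := by rw [div_le_one (by positivity)]; exact hx1
    rw [abs_lt] at hm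
    have hm0 : 0 ≤ m := by
      have : (-1 : ℝ) < m := by nlinarith [hm.2]
      have : (-1 : ℤ) < m := by exact_mod_cast this
      omega
    have hm1 : m < c + 1 := by
      have : (m : ℝ) < c + 1 := by nlinarith [hm.1]
      exact_mod_cast this
    obtain ⟨n, rfl⟩ := Int.eq_ofNat_of_zero_le hm0
    simp only [Set.mem_iUnion, Finset.mem_range, Set.mem_Ioo]
    have e : x = 2 * π * (c * (x / (2 * π))) / c := by field_simp
    push_cast at hm
    refine ⟨n, by exact_mod_cast hm1, ?_, ?_⟩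
    · rw [e]; gcongr; linarith [hm.1]
    · rw [e]; gcongr; linarith [hm.2]
  refine (measure_mono hsub).trans ((measure_biUnion_finset_le _ _).trans ?_)
  have e : ∀ m ∈ range (c + 1), volume (Set.Ioo (2 * π * ((m : ℝ) - δ) / c) (2 * π * (m + δ) / c))
      = ENNReal.ofReal (4 * π * δ / c) := by
    intro m _
    rw [Real.volume_Ioo]; congr 1; ring
  rw [Finset.sum_congr rfl e, Finset.sum_const, Finset.card_range, nsmul_eq_mul,
    ← ENNReal.ofReal_natCast, ← ENNReal.ofReal_mul (by positivity)]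
  refine ENNReal.ofReal_le_ofReal ?_
  push_cast
  rw [← mul_div_assoc, div_le_iff₀ (by positivity)]
  have : 0 ≤ π * δ := by positivity
  nlinarith

lemma volume_cells (M : ℕ) (Bad : Finset ℕ) :
    volume (⋃ i ∈ Bad, Set.Ico (2 * π * (i : ℝ) / M) (2 * π * (i + 1) / M))
      ≤ ENNReal.ofReal (Bad.card * (2 * π / M)) := by
  refine (measure_biUnion_finset_le _ _).trans (le_of_eq ?_)
  have e : ∀ i ∈ Bad, volume (Set.Ico (2 * π * (i : ℝ) / M) (2 * π * (i + 1) / M))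
      = ENNReal.ofReal (2 * π / M) := by
    intro m _
    rw [Real.volume_Ico]; congr 1; ring
  rw [Finset.sum_congr rfl e, Finset.sum_const, nsmul_eq_mul,
    ← ENNReal.ofReal_natCast, ← ENNReal.ofReal_mul (by positivity)]

lemma log_size (P K r : ℕ) (hP : 4 ≤ P) (hr : r = 1000 * P ^ 2 * (K + 1) ^ 2) :
    Real.log ((3 * ((K + 2) * (2 ^ K * P * 2 ^ r)) ^ 2 : ℕ) : ℝ) ≤ (45 * P * (K + 1)) ^ 2 := by
  have hP' : (4 : ℝ) ≤ P := by exact_mod_cast hP
  have h1 : 3 * ((K + 2) * (2 ^ K * P * 2 ^ r)) ^ 2 ≤ 2 ^ (2 + 2 * ((K + 2) + (K + P + r))) := by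
    have a1 : K + 2 ≤ 2 ^ (K + 2) := Nat.lt_two_pow_self.le
    have a2 : P ≤ 2 ^ P := Nat.lt_two_pow_self.le
    have a3 : (K + 2) * (2 ^ K * P * 2 ^ r) ≤ 2 ^ ((K + 2) + (K + P + r)) := by
      rw [pow_add 2 (K + 2), pow_add 2 (K + P), pow_add 2 K P]
      gcongr
    rw [pow_add, mul_comm 2 (K + 2 + _), pow_mul]
    gcongr
    norm_num
  have h2 : ((3 * ((K + 2) * (2 ^ K * P * 2 ^ r)) ^ 2 : ℕ) : ℝ)
      ≤ 2 ^ (2 + 2 * ((K + 2) + (K + P + r))) := by exact_mod_cast h1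
  have h3 := Real.log_le_log (Nat.cast_pos.mpr (by positivity)) h2
  rw [Real.log_pow] at h3
  have h4 : Real.log 2 ≤ 1 := by linarith [Real.log_two_lt_d9]
  refine h3.trans ((mul_le_of_le_one_right (by positivity) h4).trans ?_)
  rw [hr]
  push_cast
  have hK : (0 : ℝ) ≤ K := by positivity
  have b1 : (P : ℝ) ≤ P ^ 2 * (K + 1) ^ 2 := by
    have : (1 : ℝ) ≤ (K + 1) ^ 2 := one_le_pow₀ (by linarith)
    nlinarith
  have b2 : (K : ℝ) + 1 ≤ P ^ 2 * (K + 1) ^ 2 := by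
    have : (1 : ℝ) ≤ P ^ 2 := one_le_pow₀ (by linarith)
    nlinarith
  nlinarith

lemma main_sum (M P i : ℕ) (hM : 0 < M) (hP : 4 ≤ P) (c w : ℕ → ℝ)
    (hw : ∀ j < M, wt i j / π - (1 + P / 2) / M ≤ (if j ≤ i then 1 else -1) * w j ∧
      |w j| ≤ 3 * P / 2 * wt i j)
    (hc : ∑ j ∈ range M, wt i j * |c j - (if j ≤ i then -1 else 1)|
      ≤ 1 / (100 * P) * ∑ j ∈ range M, wt i j) :
    (∑ j ∈ range M, wt i j) / 4 - 1 - P / 2 ≤ |∑ j ∈ range M, c j * w j| := by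
  have hM' : (0 : ℝ) < M := by exact_mod_cast hM
  have hP' : (4 : ℝ) ≤ P := by exact_mod_cast hP
  have hH0 : 0 ≤ ∑ j ∈ range M, wt i j := Finset.sum_nonneg fun j _ => (wt_pos i j).le
  have a1 : ∑ j ∈ range M, (wt i j / π - (1 + P / 2) / M
      - 3 * P / 2 * (wt i j * |c j - (if j ≤ i then -1 else 1)|))
      ≤ ∑ j ∈ range M, -(c j * w j) := by
    refine Finset.sum_le_sum fun j hj => ?_
    obtain ⟨b1, b2⟩ := hw j (Finset.mem_range.mp hj)
    have b3 : |(c j - (if j ≤ i then -1 else 1)) * w j|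
        ≤ |c j - (if j ≤ i then -1 else 1)| * (3 * P / 2 * wt i j) := by
      rw [abs_mul]; gcongr
    have b4 : -(c j * w j) = (if j ≤ i then 1 else -1) * w j
        - (c j - (if j ≤ i then -1 else 1)) * w j := by
      split_ifs <;> ring
    rw [b4]
    linarith [le_abs_self ((c j - (if j ≤ i then -1 else 1)) * w j)]
  rw [Finset.sum_sub_distrib, Finset.sum_sub_distrib, ← Finset.sum_div, ← Finset.mul_sum,
    Finset.sum_const, Finset.card_range, nsmul_eq_mul, Finset.sum_neg_distrib,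
    mul_div_cancel₀ _ hM'.ne'] at a1
  generalize ∑ j ∈ range M, wt i j = H at *
  have a3 : 3 * (P : ℝ) / 2 * ∑ j ∈ range M, wt i j * |c j - (if j ≤ i then -1 else 1)|
      ≤ 3 / 200 * H := by
    refine (mul_le_mul_of_nonneg_left hc (by positivity)).trans (le_of_eq ?_)
    field_simp; ring
  have a4 : 3 / 10 * H ≤ H / π := by
    rw [le_div_iff₀ Real.pi_pos]
    nlinarith [Real.pi_lt_d2]
  linarith [neg_le_abs (∑ j ∈ range M, c j * w j)]

lemma cell (M P : ℕ) (hM : 0 < M) (hP : 4 ≤ P) (t : ℝ) (ht0 : 0 < t) (ht1 : t ≤ 1)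
    (c1 : ∀ m : ℤ, 1 / (P : ℝ) ≤ |(1 : ℕ) * t - m|) (c2 : ∀ m : ℤ, 2 / (P : ℝ) ≤ |M * t - m|) :
    1 / P ≤ t ∧ t ≤ 1 - 1 / P ∧ ∃ i < M, 2 / P ≤ M * t - i ∧ M * t - i ≤ 1 - 1 / P := by
  have hM' : (0 : ℝ) < M := by exact_mod_cast hM
  have hP' : (4 : ℝ) ≤ P := by exact_mod_cast hP
  have t0 : 1 / P ≤ t := by simpa [abs_of_pos ht0] using c1 0
  have t1 : t ≤ 1 - 1 / P := by
    have := c1 1
    rw [abs_of_nonpos (by push_cast; linarith)] at this
    push_cast at this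
    linarith
  have hP0 : (0 : ℝ) < 1 / P := by positivity
  have i1 : (⌊M * t⌋₊ : ℝ) ≤ M * t := Nat.floor_le (by positivity)
  have i2 : M * t < ⌊M * t⌋₊ + 1 := Nat.lt_floor_add_one _
  refine ⟨t0, t1, ⌊M * t⌋₊, ?_, ?_, ?_⟩
  · have : (⌊M * t⌋₊ : ℝ) < M := lt_of_le_of_lt i1 (mul_lt_of_lt_one_right hM' (by linarith))
    exact_mod_cast this
  · have := c2 ⌊M * t⌋₊
    rwa [Int.cast_natCast, abs_of_nonneg (by linarith)] at this
  · have := c2 (⌊M * t⌋₊ + 1)
    push_cast at this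
    rw [abs_of_nonpos (by linarith)] at this
    have : (1 : ℝ) / P ≤ 2 / P := by gcongr; norm_num
    linarith

lemma point_lower (P K r M Q R n i : ℕ) (hP : 4 ≤ P) (hM : M = 2 ^ K) (hQ : Q = M * P * 2 ^ r)
    (hR : R = 3 * ((K + 2) * Q) ^ 2) (τ y : ℕ → ℝ) (hy : ∀ j, y j = 2 * π * ((j + τ j / P) / M))
    (hn : n ≤ (K + 1) * 2 ^ r) (hτ : ∀ j, 0 ≤ τ j ∧ τ j < 1) (hτ' : ∀ j, ∃ m : ℤ, 2 ^ r * τ j = m)
    (hi : i < M)
    (hgood : ∑ j ∈ range M, wt i j * |cos (2 * π * (n * τ j)) - (if j ≤ i then -1 else 1)|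
      ≤ 1 / (100 * P) * ∑ j ∈ range M, wt i j)
    (t : ℝ) (t0 : 1 / P ≤ t) (t1 : t ≤ 1 - 1 / P) (x0 : 2 / P ≤ M * t - i)
    (x1 : M * t - i ≤ 1 - 1 / P) (c3 : ∀ m : ℤ, 1 / (P : ℝ) ≤ |(2 * Q : ℕ) * t - m|) :
    ∃ N ≤ R, (K : ℝ) / (16 * P) - 3 ≤ ‖fsum (fun x => (fej y M R x : ℂ)) N (2 * π * t)‖ := by
  have hP' : (4 : ℝ) ≤ P := by exact_mod_cast hP
  have hM0 : 0 < M := by omega
  have hM' : (0 : ℝ) < M := by exact_mod_cast hM0
  have hQ0 : 0 < Q := by rw [hQ]; positivity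
  have hR0 : 0 < R := by rw [hR]; positivity
  have n1 : M * P * n + Q ≤ (K + 2) * Q := by
    have := Nat.mul_le_mul_left (M * P) hn
    rw [hQ]
    nlinarith
  have hq : ∀ N : ℕ, N ≤ (K + 2) * Q → N ≤ R ∧ (2 * N + 1 : ℝ) * N / R ≤ 1 := by
    intro N hN
    have h1 : 0 < (K + 2) * Q := by positivity
    have : (2 * N + 1) * N ≤ R := by rw [hR]; nlinarith
    refine ⟨by nlinarith, div_le_one_of_le₀ ?_ (by positivity)⟩
    exact_mod_cast this
  have q0 := hq (M * P * n) (by omega)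
  have q1 := hq _ n1
  have hw := fun j (hj : j < M) => weight_bounds M P i j hP hi hj (τ j) t (M * t - i) (hτ j).1
    (hτ j).2 (by ring) x0 x1 t0 t1 (2 * π * t - y j) (by rw [hy])
  have hH1 : (K : ℝ) / 2 - 1 ≤ ∑ j ∈ range M, wt i j := by
    rw [hM] at hi ⊢; exact sum_wt_ge K i hi
  have hA := main_sum M P i hM0 hP (fun j => cos (2 * π * (n * τ j))) _
    (fun j hj => (hw j hj).2) hgood
  have hs : ∀ j < M, sin ((2 * π * t - y j) / 2) ≠ 0 := fun j hj => (hw j hj).1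
  have hN0 : ∀ j, ∃ m : ℤ, ((M * P * n : ℕ) : ℝ) * y j = 2 * π * (n * τ j) + m * (2 * π) := by
    intro j
    refine ⟨P * n * j, ?_⟩
    rw [hy]
    push_cast
    field_simp
    ring
  have hN1 : ∀ j, ∃ m : ℤ, ((M * P * n + Q : ℕ) : ℝ) * y j = 2 * π * (n * τ j) + m * (2 * π) := by
    intro j
    obtain ⟨m, hm⟩ := hτ' j
    refine ⟨P * n * j + P * 2 ^ r * j + m, ?_⟩
    rw [hy, hQ]
    push_cast
    rw [← hm]
    field_simp
    ring
  have l0 := fsum_lower y _ M R _ hR0 (2 * π * t) hs hN0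
  have l1 := fsum_lower y _ M R _ hR0 (2 * π * t) hs hN1
  have hsin : 1 / P ≤ |sin (Q * (2 * π * t))| := by
    have := abs_sin_ge _ _ c3
    have e : π * (((2 * Q : ℕ) : ℝ) * t) = Q * (2 * π * t) := by push_cast; ring
    rwa [e] at this
  generalize (∑ j ∈ range M, cos (2 * π * (n * τ j)) *
    (cos ((2 * π * t - y j) / 2) / sin ((2 * π * t - y j) / 2) / M)) = A at *
  generalize (∑ j ∈ range M, sin (2 * π * (n * τ j)) *
    (cos ((2 * π * t - y j) / 2) / sin ((2 * π * t - y j) / 2) / M)) = B at *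
  have hph := two_phase A B (((M * P * n : ℕ) : ℝ) * (2 * π * t)) (Q * (2 * π * t))
  rw [← add_mul, ← Nat.cast_add] at hph
  have hfin : 2 * ((K : ℝ) / (16 * P) - 1) ≤ |A| * |sin (Q * (2 * π * t))| := by
    calc 2 * ((K : ℝ) / (16 * P) - 1) = (K / 8 - 2 * P) * (1 / P) := by field_simp; ring
      _ ≤ |A| * (1 / P) := by gcongr; linarith
      _ ≤ _ := by gcongr
  by_cases hc : (K : ℝ) / (16 * P) - 3 ≤
      ‖fsum (fun x => (fej y M R x : ℂ)) (M * P * n) (2 * π * t)‖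
  · exact ⟨_, q0.1, hc⟩
  · refine ⟨_, q1.1, ?_⟩
    push Not at hc
    linarith [q0.2, q1.2]

theorem atom (P K : ℕ) (hP : 4 ≤ P) : ∃ (R : ℕ) (g : ℝ → ℝ), 2 ^ K ≤ R ∧
    Real.log R ≤ (45 * P * (K + 1)) ^ 2 ∧ Continuous g ∧ (∀ x, 0 ≤ g x ∧ g x ≤ R) ∧
    (∫ x in (0 : ℝ)..(2 * π), g x ≤ 2 * π) ∧ (∀ k, ‖coef (fun x => (g x : ℂ)) k‖ ≤ 1) ∧
    (∀ N x, ‖fsum (fun x => (g x : ℂ)) N x‖ ≤ R) ∧
    volume ({x | ¬ ∃ N ≤ R, (K : ℝ) / (16 * P) - 3 ≤ ‖fsum (fun x => (g x : ℂ)) N x‖}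
      ∩ Set.Ioc 0 (2 * π)) ≤ ENNReal.ofReal (110 / P) := by
  have hπ := Real.pi_pos
  have hP' : (4 : ℝ) ≤ P := by exact_mod_cast hP
  obtain ⟨r, hr⟩ : ∃ r : ℕ, r = 1000 * P ^ 2 * (K + 1) ^ 2 := ⟨_, rfl⟩
  have hr0 : 0 < r := by rw [hr]; positivity
  obtain ⟨n, τ, Bad, hn, hτ, hτ', hBad, hgood⟩ := hash_lemma K r hr0 (1 / (100 * P))
    (by positivity)
  obtain ⟨M, hM⟩ : ∃ M : ℕ, M = 2 ^ K := ⟨_, rfl⟩
  rw [← hM] at hgood
  have hM0 : 0 < M := by rw [hM]; positivity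
  have hM' : (0 : ℝ) < M := by exact_mod_cast hM0
  obtain ⟨Q, hQ⟩ : ∃ Q : ℕ, Q = M * P * 2 ^ r := ⟨_, rfl⟩
  have hQ0 : 0 < Q := by rw [hQ]; positivity
  obtain ⟨R, hR⟩ : ∃ R : ℕ, R = 3 * ((K + 2) * Q) ^ 2 := ⟨_, rfl⟩
  obtain ⟨y, hy⟩ : ∃ y : ℕ → ℝ, ∀ j, y j = 2 * π * ((j + τ j / P) / M) := ⟨_, fun _ => rfl⟩
  refine ⟨R, fej y M R, ?_, ?_, continuous_fej _ _ _, fun x => ⟨fej_nonneg _ _ _ _, fej_le _ _ _ _⟩,
    integral_fej_le _ _ _, norm_coef_fej_le_one _ _ _, norm_fsum_fej _ _ _, ?_⟩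
  · have h1 : M ≤ Q := by
      rw [hQ, mul_assoc]; exact Nat.le_mul_of_pos_right _ (by positivity)
    have h2 : Q ≤ (K + 2) * Q := Nat.le_mul_of_pos_left _ (by omega)
    rw [← hM, hR]
    nlinarith
  · rw [hR, hQ, hM]
    exact log_size P K r hP hr
  have hsub : {x | ¬ ∃ N ≤ R, (K : ℝ) / (16 * P) - 3 ≤ ‖fsum (fun x => (fej y M R x : ℂ)) N x‖}
      ∩ Set.Ioc 0 (2 * π) ⊆
      (nearZ 1 (1 / P) ∩ Set.Ioc 0 (2 * π)) ∪ (nearZ M (2 / P) ∩ Set.Ioc 0 (2 * π)) ∪
        (nearZ (2 * Q) (1 / P) ∩ Set.Ioc 0 (2 * π)) ∪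
        ⋃ i ∈ Bad, Set.Ico (2 * π * (i : ℝ) / M) (2 * π * (i + 1) / M) := by
    rintro x ⟨hx, hxI⟩
    by_contra hcon
    simp only [Set.mem_union, not_or, Set.mem_inter_iff, hxI, and_true, nearZ, Set.mem_ofPred_eq,
      not_exists, not_lt] at hcon
    obtain ⟨⟨⟨c1, c2⟩, c3⟩, c4⟩ := hcon
    apply hx
    have hxt : x = 2 * π * (x / (2 * π)) := by field_simp
    have ht0 : 0 < x / (2 * π) := div_pos hxI.1 (by positivity)
    have ht1 : x / (2 * π) ≤ 1 := by rw [div_le_one (by positivity)]; exact hxI.2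
    generalize x / (2 * π) = t at *
    obtain ⟨t0, t1, i, hiM, x0, x1⟩ := cell M P hM0 hP t ht0 ht1 c1 c2
    have hP0 : (0 : ℝ) < 1 / P := by positivity
    have hP1 : (0 : ℝ) < 2 / P := by positivity
    have hiB : i ∉ Bad := by
      intro h
      apply c4
      simp only [Set.mem_iUnion, Set.mem_Ico]
      refine ⟨i, h, ?_, ?_⟩
      · rw [hxt, mul_div_assoc]; gcongr; rw [div_le_iff₀ hM']; linarith
      · rw [hxt, mul_div_assoc]; gcongr; rw [lt_div_iff₀ hM']; linarith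
    rw [hxt]
    exact point_lower P K r M Q R (n i) i hP hM hQ hR τ y hy (hn i) hτ hτ' hiM
      (hgood i hiM hiB) t t0 t1 x0 x1 c3
  refine (measure_mono hsub).trans ?_
  have hP1 : (1 : ℝ) / P ≤ 1 := by rw [div_le_one (by positivity)]; linarith
  have hP2 : (2 : ℝ) / P ≤ 1 := by rw [div_le_one (by positivity)]; linarith
  have v1 := volume_nearZ 1 le_rfl (1 / P) (by positivity) hP1
  have v2 := volume_nearZ M hM0 (2 / P) (by positivity) hP2
  have v3 := volume_nearZ (2 * Q) (by omega) (1 / P) (by positivity) hP1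
  have v4 := volume_cells M Bad
  refine (measure_union_le _ _).trans ((add_le_add ((measure_union_le _ _).trans
    (add_le_add ((measure_union_le _ _).trans (add_le_add v1 v2)) v3)) v4).trans ?_)
  rw [← ENNReal.ofReal_add (by positivity) (by positivity),
    ← ENNReal.ofReal_add (by positivity) (by positivity),
    ← ENNReal.ofReal_add (by positivity) (by positivity)]
  refine ENNReal.ofReal_le_ofReal ?_
  have h1 : (Bad.card : ℝ) * (2 * π / M) ≤ 2 * π * (1 / P) := by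
    have e : (2 : ℝ) ^ K * (2 * π * (K + 1) ^ 2 / r / (1 / (100 * P))) = M * (π / 5) * (1 / P) := by
      rw [hr, hM]; push_cast; field_simp; ring
    rw [e] at hBad
    calc (Bad.card : ℝ) * (2 * π / M) ≤ M * (π / 5) * (1 / P) * (2 * π / M) := by gcongr
      _ = π / 5 * (2 * π * (1 / P)) := by field_simp
      _ ≤ _ := mul_le_of_le_one_left (by positivity) (by linarith [Real.pi_lt_four])
  have h2 : π * (1 / P) ≤ 3.15 * (1 / P) := by gcongr; exact Real.pi_lt_d2.le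
  have h3 : (0 : ℝ) < 1 / P := by positivity
  have e1 : (2 : ℝ) / P = 2 * (1 / P) := by ring
  have e2 : (110 : ℝ) / P = 110 * (1 / P) := by ring
  rw [e1, e2]
  linarith

end Vale.Agent.P091
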