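import Mathlib

namespace Vale.Agent.P091

open Real

/-- The `k`-th Fourier coefficient of `f` on the circle of length `2 π`
(normalized Lebesgue measure). -/
noncomputable def coef (f : ℝ → ℂ) (k : ℤ) : ℂ :=
  (1 / (2 * π) : ℂ) * ∫ x in (0 : ℝ)..(2 * π), f x * Complex.exp (-((k : ℂ) * x * Complex.I))

/-- The symmetric Fourier sum `S_N f (x)`. -/
noncomputable def fsum (f : ℝ → ℂ) (N : ℕ) (x : ℝ) : ℂ :=
  ∑ k ∈ Finset.Icc (-(N : ℤ)) N, coef f k * Complex.exp ((k : ℂ) * x * Complex.I)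

end Vale.Agent.P091
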