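import Vale.Agent.P091.Defs

/-! Dirichlet kernel and Fejer smoothing of a sum of point masses. -/

namespace Vale.Agent.P091

open Finset Real Complex

lemma dirichlet (u : ℝ) (hu : Real.sin (u / 2) ≠ 0) (N : ℕ) :
    ∑ k ∈ Finset.Icc (-(N : ℤ)) N, cexp ((k : ℂ) * u * I) =
      ((Real.sin (N * u) * (Real.cos (u / 2) / Real.sin (u / 2)) + Real.cos (N * u) : ℝ) : ℂ) := by
  induction N with
  | zero => simp
  | succ N ih =>
    have e : Finset.Icc (-((N + 1 : ℕ) : ℤ)) (N + 1 : ℕ) =
        insert ((N : ℤ) + 1) (insert (-((N : ℤ) + 1)) (Finset.Icc (-(N : ℤ)) N)) := by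
      ext k; simp only [Finset.mem_Icc, Finset.mem_insert]; push_cast; omega
    rw [e, Finset.sum_insert (by simp only [Finset.mem_Icc, Finset.mem_insert]; omega),
      Finset.sum_insert (by simp only [Finset.mem_Icc]; omega), ih, ← add_assoc]
    have h1 : cexp ((((N : ℤ) + 1 : ℤ) : ℂ) * u * I) + cexp (((-((N : ℤ) + 1) : ℤ) : ℂ) * u * I)
        = ((2 * Real.cos ((N + 1) * u) : ℝ) : ℂ) := by
      push_cast
      rw [Complex.two_cos]
      congr 2
      ring
    rw [h1, ← Complex.ofReal_add]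
    congr 1
    push_cast
    set v := u / 2 with hv
    have huv : u = 2 * v := by rw [hv]; ring
    have s2 : Real.sin u = 2 * Real.sin v * Real.cos v := by rw [huv, Real.sin_two_mul]
    have c2 : Real.cos u = 2 * Real.cos v ^ 2 - 1 := by rw [huv, Real.cos_two_mul]
    have sc := Real.sin_sq_add_cos_sq v
    rw [add_mul, one_mul, Real.cos_add, Real.sin_add, s2, c2]
    field_simp
    linear_combination (-2 * Real.sin (N * u) * Real.cos v) * sc

lemma integral_exp_int (k : ℤ) :
    ∫ x in (0 : ℝ)..(2 * π), cexp ((k : ℂ) * x * I) = if k = 0 then ((2 * π : ℝ) : ℂ) else 0 := by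
  split_ifs with h
  · subst h; simp
  · have hk : (k : ℂ) * I ≠ 0 := mul_ne_zero (by exact_mod_cast h) I_ne_zero
    have := integral_exp_mul_complex (a := 0) (b := 2 * π) hk
    simp only [mul_right_comm (k : ℂ) _ I]
    rw [this]
    have e : cexp ((k : ℂ) * I * ((2 * π : ℝ) : ℂ)) = 1 := by
      rw [← Complex.exp_int_mul_two_pi_mul_I k]
      congr 1; push_cast; ring
    rw [e]; simp

/-- Average of Fejer kernels of order `R` centred at the points `y j`. -/
noncomputable def fej (y : ℕ → ℝ) (M R : ℕ) (x : ℝ) : ℝ :=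
  (∑ j ∈ range M, ‖∑ l ∈ range R, cexp ((l : ℂ) * (x - y j : ℝ) * I)‖ ^ 2) / (M * R)

lemma fej_nonneg (y : ℕ → ℝ) (M R : ℕ) (x : ℝ) : 0 ≤ fej y M R x := by unfold fej; positivity

lemma norm_exp_mul (a : ℂ) (ha : a.im = 0) : ‖cexp (a * I)‖ = 1 := by
  rw [Complex.norm_exp]; simp [ha]

lemma fej_le (y : ℕ → ℝ) (M R : ℕ) (x : ℝ) : fej y M R x ≤ R := by
  unfold fej
  refine div_le_of_le_mul₀ (by positivity) (by positivity) ?_
  calc _ ≤ ∑ _j ∈ range M, (R : ℝ) ^ 2 := by
        refine Finset.sum_le_sum fun j _ => ?_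
        gcongr
        refine (norm_sum_le _ _).trans (le_of_eq ?_)
        rw [Finset.sum_congr rfl fun l _ => norm_exp_mul _ (by simp)]
        simp
    _ = _ := by simp; ring

lemma continuous_fej (y : ℕ → ℝ) (M R : ℕ) : Continuous (fej y M R) := by
  unfold fej; fun_prop

lemma fej_eq (y : ℕ → ℝ) (M R : ℕ) (x : ℝ) : (fej y M R x : ℂ) =
    (∑ j ∈ range M, ∑ c ∈ range R ×ˢ range R,
      cexp ((((c.1 : ℤ) - c.2 : ℤ) : ℂ) * (x - y j : ℝ) * I)) / (M * R) := by
  unfold fej
  push_cast
  congr 1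
  refine Finset.sum_congr rfl fun j _ => ?_
  rw [← Complex.mul_conj', map_sum, Finset.sum_mul_sum, Finset.sum_product]
  refine Finset.sum_congr rfl fun l _ => Finset.sum_congr rfl fun l' _ => ?_
  rw [← Complex.exp_conj, ← Complex.exp_add]
  congr 1
  simp only [map_mul, map_natCast, map_sub, Complex.conj_ofReal, Complex.conj_I]
  ring

/-- The number of representations of `k` as a difference. -/
def cnt (R : ℕ) (k : ℤ) : ℕ := ((range R ×ˢ range R).filter (fun c => (c.1 : ℤ) - c.2 = k)).card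

lemma cnt_le (R : ℕ) (k : ℤ) : cnt R k ≤ R := by
  unfold cnt
  calc _ ≤ (range R).card := Finset.card_le_card_of_injOn (fun c => c.1)
        (fun c hc => by
          simp only [Finset.coe_filter, Finset.mem_product, Set.mem_ofPred_eq] at hc
          exact hc.1.1)
        (fun c hc c' hc' e => by
          simp only [Finset.coe_filter, Finset.mem_product, Set.mem_ofPred_eq] at hc hc'
          simp only at e
          exact Prod.ext e (by omega))
    _ = R := Finset.card_range R

lemma le_cnt (R : ℕ) (k : ℤ) : R - k.natAbs ≤ cnt R k := by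
  unfold cnt
  calc R - k.natAbs = (range (R - k.natAbs)).card := (Finset.card_range _).symm
    _ ≤ _ := Finset.card_le_card_of_injOn (fun m => (m + k.toNat, m + (-k).toNat))
        (fun m hm => by
          simp only [Finset.coe_range, Set.mem_Iio] at hm
          simp only [Finset.coe_filter, Finset.mem_product, Set.mem_ofPred_eq, Finset.mem_range]
          push_cast
          omega)
        (fun m _ m' _ e => by
          have := congrArg Prod.fst e
          simp only at this
          omega)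

lemma sum_cnt_le (R : ℕ) (s : Finset ℤ) : ∑ k ∈ s, cnt R k ≤ R * R := by
  unfold cnt
  rw [← Finset.card_biUnion]
  · calc _ ≤ (range R ×ˢ range R).card :=
          Finset.card_le_card (Finset.biUnion_subset.mpr fun k _ => Finset.filter_subset _ _)
      _ = _ := by simp
  · intro k _ k' _ hk
    rw [Function.onFun, Finset.disjoint_filter]
    intro c _ h1 h2
    exact hk (h1.symm.trans h2)

lemma coef_fej (y : ℕ → ℝ) (M R : ℕ) (k : ℤ) : coef (fun x => (fej y M R x : ℂ)) k =
    (cnt R k / R : ℂ) * ((∑ j ∈ range M, cexp (-((k : ℂ) * y j * I))) / M) := by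
  unfold coef
  have e1 : ∀ x : ℝ, (fej y M R x : ℂ) * cexp (-((k : ℂ) * x * I)) =
      ∑ j ∈ range M, ∑ c ∈ range R ×ˢ range R,
        (cexp (-((((c.1 : ℤ) - c.2 : ℤ) : ℂ) * y j * I)) / (M * R)) *
          cexp ((((c.1 : ℤ) - c.2 - k : ℤ) : ℂ) * x * I) := by
    intro x
    rw [fej_eq, Finset.sum_div, Finset.sum_mul]
    refine Finset.sum_congr rfl fun j _ => ?_
    rw [Finset.sum_div, Finset.sum_mul]
    refine Finset.sum_congr rfl fun c _ => ?_
    rw [div_mul_eq_mul_div, div_mul_eq_mul_div, ← Complex.exp_add, ← Complex.exp_add]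
    congr 2
    push_cast; ring
  simp only [e1]
  rw [intervalIntegral.integral_finsetSum (fun j _ => by
    apply Continuous.intervalIntegrable; fun_prop)]
  have e2 : ∀ j ∈ range M, ∫ x in (0 : ℝ)..(2 * π), ∑ c ∈ range R ×ˢ range R,
      (cexp (-((((c.1 : ℤ) - c.2 : ℤ) : ℂ) * y j * I)) / (M * R)) *
          cexp ((((c.1 : ℤ) - c.2 - k : ℤ) : ℂ) * x * I)
      = cnt R k * (cexp (-((k : ℂ) * y j * I)) / (M * R) * ((2 * π : ℝ) : ℂ)) := by
    intro j _
    rw [intervalIntegral.integral_finsetSum (fun j _ => by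
      apply Continuous.intervalIntegrable; fun_prop)]
    simp only [intervalIntegral.integral_const_mul, integral_exp_int]
    unfold cnt
    rw [Finset.card_filter, Nat.cast_sum, Finset.sum_mul]
    refine Finset.sum_congr rfl fun c _ => ?_
    by_cases h : (c.1 : ℤ) - c.2 = k
    · rw [if_pos h, if_pos (sub_eq_zero.mpr h), h]; simp
    · rw [if_neg h, if_neg (fun h' => h (sub_eq_zero.mp h'))]; simp
  rw [Finset.sum_congr rfl e2, ← Finset.mul_sum, ← Finset.sum_mul, ← Finset.sum_div]
  have : (π : ℂ) ≠ 0 := by exact_mod_cast Real.pi_ne_zero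
  generalize (∑ j ∈ range M, cexp (-((k : ℂ) * y j * I))) = Z
  push_cast
  field_simp

lemma norm_avg_le (M : ℕ) (z : ℕ → ℂ) (hz : ∀ j, ‖z j‖ = 1) : ‖(∑ j ∈ range M, z j) / M‖ ≤ 1 := by
  rw [norm_div, Complex.norm_natCast]
  refine div_le_one_of_le₀ ?_ (by positivity)
  refine (norm_sum_le _ _).trans (le_of_eq ?_)
  simp [hz]

lemma norm_coef_fej (y : ℕ → ℝ) (M R : ℕ) (k : ℤ) :
    ‖coef (fun x => (fej y M R x : ℂ)) k‖ ≤ cnt R k / R := by
  rw [coef_fej, norm_mul, norm_div, Complex.norm_natCast, Complex.norm_natCast]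
  refine mul_le_of_le_one_right (by positivity) (norm_avg_le _ _ fun j => ?_)
  rw [← neg_mul]
  exact norm_exp_mul _ (by simp)

lemma norm_coef_fej_le_one (y : ℕ → ℝ) (M R : ℕ) (k : ℤ) :
    ‖coef (fun x => (fej y M R x : ℂ)) k‖ ≤ 1 :=
  (norm_coef_fej y M R k).trans
    (div_le_one_of_le₀ (by exact_mod_cast cnt_le R k) (by positivity))

lemma norm_fsum_fej (y : ℕ → ℝ) (M R N : ℕ) (x : ℝ) :
    ‖fsum (fun x => (fej y M R x : ℂ)) N x‖ ≤ R := by
  unfold fsum
  refine (norm_sum_le _ _).trans ?_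
  calc _ ≤ ∑ k ∈ Finset.Icc (-(N : ℤ)) N, (cnt R k / R : ℝ) := by
        refine Finset.sum_le_sum fun k _ => ?_
        rw [norm_mul, norm_exp_mul _ (by simp), mul_one]
        exact norm_coef_fej y M R k
    _ ≤ R := by
        rw [← Finset.sum_div]
        refine div_le_of_le_mul₀ (by positivity) (by positivity) ?_
        exact_mod_cast sum_cnt_le R _

lemma fsum_fej_approx (y : ℕ → ℝ) (M R N : ℕ) (hR : 0 < R) (x : ℝ) :
    ‖fsum (fun x => (fej y M R x : ℂ)) N x - (∑ j ∈ range M,
      ∑ k ∈ Finset.Icc (-(N : ℤ)) N, cexp ((k : ℂ) * (x - y j : ℝ) * I)) / M‖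
      ≤ (2 * N + 1) * N / R := by
  have hR' : (0 : ℝ) < R := by exact_mod_cast hR
  unfold fsum
  rw [Finset.sum_comm, Finset.sum_div, ← Finset.sum_sub_distrib]
  refine (norm_sum_le _ _).trans ?_
  calc _ ≤ ∑ _k ∈ Finset.Icc (-(N : ℤ)) N, (N / R : ℝ) := by
        refine Finset.sum_le_sum fun k hk => ?_
        rw [Finset.mem_Icc] at hk
        have e : coef (fun x => (fej y M R x : ℂ)) k * cexp ((k : ℂ) * x * I) -
            (∑ j ∈ range M, cexp ((k : ℂ) * (x - y j : ℝ) * I)) / M =
            ((cnt R k / R - 1 : ℝ) : ℂ) *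
              ((∑ j ∈ range M, cexp ((k : ℂ) * (x - y j : ℝ) * I)) / M) := by
          rw [coef_fej, mul_assoc, div_mul_eq_mul_div _ (M : ℂ), Finset.sum_mul]
          have : ∀ j ∈ range M, cexp (-((k : ℂ) * y j * I)) * cexp ((k : ℂ) * x * I)
              = cexp ((k : ℂ) * (x - y j : ℝ) * I) := by
            intro j _
            rw [← Complex.exp_add]
            congr 1
            push_cast; ring
          rw [Finset.sum_congr rfl this]
          push_cast; ring
        rw [e, norm_mul, Complex.norm_real, Real.norm_eq_abs]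
        refine (mul_le_of_le_one_right (abs_nonneg _)
          (norm_avg_le _ _ fun j => norm_exp_mul _ (by simp))).trans ?_
        have h1 : (cnt R k : ℝ) ≤ R := by exact_mod_cast cnt_le R k
        have h2 : (R : ℝ) ≤ cnt R k + N := by
          have := le_cnt R k
          exact_mod_cast (show R ≤ cnt R k + N by omega)
        rw [abs_sub_comm, abs_of_nonneg (by rw [sub_nonneg, div_le_one hR']; exact h1),
          le_div_iff₀ hR', sub_mul, div_mul_cancel₀ _ hR'.ne']
        linarith
    _ = _ := by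
        rw [Finset.sum_const, Int.card_Icc, nsmul_eq_mul]
        have : ((N : ℤ) + 1 - -(N : ℤ)).toNat = 2 * N + 1 := by omega
        rw [this]; push_cast; ring

lemma integral_fej_le (y : ℕ → ℝ) (M R : ℕ) : ∫ x in (0 : ℝ)..(2 * π), fej y M R x ≤ 2 * π := by
  have h := norm_coef_fej_le_one y M R 0
  unfold coef at h
  simp only [Int.cast_zero, zero_mul, neg_zero, Complex.exp_zero, mul_one] at h
  rw [intervalIntegral.integral_ofReal, norm_mul, Complex.norm_real, norm_div, norm_one,
    norm_mul, Complex.norm_real, Real.norm_of_nonneg Real.pi_pos.le, Complex.norm_ofNat,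
    one_div_mul_eq_div, div_le_one (by positivity)] at h
  exact (le_abs_self _).trans h

end Vale.Agent.P091
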