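import Vale.Agent.P091.Atom

/-! The gliding hump argument. -/

namespace Vale.Agent.P091

open Finset Real MeasureTheory Filter Topology Asymptotics
open scoped ENNReal

lemma coef_mul (a : ℝ) (g : ℝ → ℝ) (k : ℤ) :
    coef (fun x => ((a * g x : ℝ) : ℂ)) k = a * coef (fun x => (g x : ℂ)) k := by
  unfold coef
  rw [mul_left_comm, ← intervalIntegral.integral_const_mul (a : ℂ)]
  congr 2
  funext x
  push_cast; ring

lemma fsum_mul (a : ℝ) (g : ℝ → ℝ) (N : ℕ) (x : ℝ) :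
    fsum (fun x => ((a * g x : ℝ) : ℂ)) N x = a * fsum (fun x => (g x : ℂ)) N x := by
  unfold fsum
  rw [Finset.mul_sum]
  refine Finset.sum_congr rfl fun k _ => ?_
  rw [coef_mul, mul_assoc]

/-- The properties of one hump. -/
structure Hump (φ : ℝ → ℝ) (k : ℕ) (σ : ℝ) (R : ℕ) (a D : ℝ) (G : ℝ → ℝ) : Prop where
  a0 : 0 ≤ a
  D0 : 0 ≤ D
  small : a * (2 * σ + 1) ≤ (1 / 2) ^ k
  aD : a * D ≤ 2 * (1 / 2) ^ k
  phi : ∀ u t, 0 ≤ u → u ≤ σ + R + 1 → 1 ≤ t → u ≤ σ + t → φ u ≤ D * t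
  cont : Continuous G
  bd : ∀ x, 0 ≤ G x ∧ G x ≤ R
  int : ∫ x in (0 : ℝ)..(2 * π), G x ≤ 2 * π * a
  cf : ∀ n, ‖coef (fun x => (G x : ℂ)) n‖ ≤ a
  fs : ∀ N x, ‖fsum (fun x => (G x : ℂ)) N x‖ ≤ R
  bad : volume ({x | ¬ ∃ N ≤ R, k + σ + 1 ≤ ‖fsum (fun x => (G x : ℂ)) N x‖}
    ∩ Set.Ioc 0 (2 * π)) ≤ ENNReal.ofReal (110 * (1 / 2) ^ k)

lemma phi_le (φ : ℝ → ℝ) (hmono : MonotoneOn φ (Set.Ici 0)) (h0 : ∀ u, 0 ≤ u → 0 ≤ φ u)
    (ho : φ =o[atTop] fun u => u * √(Real.log u)) (ε : ℝ) (hε : 0 < ε) :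
    ∃ C, 0 ≤ C ∧ ∀ u H, 0 ≤ u → u ≤ H → φ u ≤ C + ε * (u * √(Real.log H)) := by
  obtain ⟨U, hU⟩ := eventually_atTop.mp (isLittleO_iff.mp ho hε)
  refine ⟨φ (max U 1), h0 _ (by positivity), fun u H hu hH => ?_⟩
  by_cases h : u ≤ max U 1
  · have h1 := hmono hu (show (0 : ℝ) ≤ max U 1 by positivity) h
    have : 0 ≤ ε * (u * √(Real.log H)) := by positivity
    linarith
  · push Not at h
    have h1 := hU u ((le_max_left _ _).trans h.le)
    have hu1 : 1 ≤ u := (le_max_right _ _).trans h.le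
    rw [Real.norm_eq_abs, Real.norm_of_nonneg (by positivity)] at h1
    have h2 : ε * (u * √(Real.log u)) ≤ ε * (u * √(Real.log H)) := by gcongr
    have h3 := h0 (max U 1) (by positivity)
    linarith [le_abs_self (φ u)]

lemma sqrt_log_le (P K R : ℕ) (σ : ℝ) (hσ : 0 ≤ σ) (hK : 1 ≤ K) (hR : σ + 2 ≤ R)
    (h : Real.log R ≤ (45 * P * (K + 1)) ^ 2) : √(Real.log (σ + R + 1)) ≤ 128 * P * K := by
  have hK' : (1 : ℝ) ≤ K := by exact_mod_cast hK
  have h1 : σ + R + 1 ≤ (R : ℝ) ^ 2 := by nlinarith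
  have h2 := Real.log_le_log (by positivity) h1
  rw [Real.log_pow] at h2
  rw [Real.sqrt_le_left (by positivity)]
  have h3 : (45 * P * (K + 1) : ℝ) ≤ 90 * (P * K) := by nlinarith [(Nat.cast_nonneg P : (0 : ℝ) ≤ P)]
  have h4 : (45 * P * (K + 1) : ℝ) ^ 2 ≤ (90 * (P * K)) ^ 2 := by gcongr
  push_cast at h2
  nlinarith [sq_nonneg ((P : ℝ) * K)]

lemma step (φ : ℝ → ℝ) (hmono : MonotoneOn φ (Set.Ici 0)) (h0 : ∀ u, 0 ≤ u → 0 ≤ φ u)
    (ho : φ =o[atTop] fun u => u * √(Real.log u)) (k : ℕ) (σ : ℝ) (hσ : 0 ≤ σ) :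
    ∃ (R : ℕ) (a D : ℝ) (G : ℝ → ℝ), Hump φ k σ R a D G := by
  obtain ⟨P, hP⟩ : ∃ P : ℕ, P = 2 ^ (k + 2) := ⟨_, rfl⟩
  have hP4 : 4 ≤ P := by
    rw [hP, pow_add]; exact Nat.le_mul_of_pos_left _ (by positivity)
  have hP' : (4 : ℝ) ≤ P := by exact_mod_cast hP4
  obtain ⟨l, hl⟩ : ∃ l : ℝ, l = 16 * P * (k + σ + 4) := ⟨_, rfl⟩
  have hl0 : 0 < l := by rw [hl]; positivity
  obtain ⟨q, hq⟩ : ∃ q : ℝ, q = (1 / 2) ^ k := ⟨_, rfl⟩
  have hq0 : 0 < q := by rw [hq]; positivity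
  have hq1 : q ≤ 1 := by rw [hq]; exact pow_le_one₀ (by norm_num) (by norm_num)
  obtain ⟨C, hC0, hC⟩ := phi_le φ hmono h0 ho (q / (128 * P * l * (σ + 1))) (by positivity)
  obtain ⟨K, hK⟩ := exists_nat_ge (l * (2 * σ + 1) / q + C * l / q + (σ + 2))
  have k1 : 0 ≤ l * (2 * σ + 1) / q := by positivity
  have k2 : 0 ≤ C * l / q := by positivity
  have hK0 : (0 : ℝ) < K := by linarith
  have hK1 : 1 ≤ K := by exact_mod_cast hK0
  obtain ⟨R, g, hR1, hR2, hg1, hg2, hg3, hg4, hg5, hg6⟩ := atom P K hP4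
  have hKR : σ + 2 ≤ R := by
    have : (K : ℝ) ≤ R := by exact_mod_cast (Nat.lt_two_pow_self.le.trans hR1)
    linarith
  have ha0 : 0 < l / K := by positivity
  have ha1 : l / K * (2 * σ + 1) ≤ q := by
    rw [div_mul_eq_mul_div, div_le_comm₀ hK0 hq0]; linarith
  have ha2 : l / K ≤ 1 := by nlinarith
  refine ⟨R, l / K, C + q / (128 * P * l * (σ + 1)) * (128 * P * K * (σ + 1)),
    fun x => l / K * g x, ha0.le, by positivity, hq ▸ ha1, ?_, ?_, by fun_prop, ?_, ?_, ?_, ?_, ?_⟩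
  · have h1 : l / K * C ≤ q := by
      rw [div_mul_eq_mul_div, div_le_comm₀ hK0 hq0, mul_comm]; linarith
    have h2 : l / K * (q / (128 * P * l * (σ + 1)) * (128 * P * K * (σ + 1))) = q := by field_simp
    rw [mul_add, h2, ← hq]; linarith
  · intro u t hu hu1 ht hu2
    have h1 := hC u _ hu hu1
    have h2 := sqrt_log_le P K R σ hσ hK1 hKR hR2
    have h3 : u ≤ (σ + 1) * t := by nlinarith
    have h4 : q / (128 * P * l * (σ + 1)) * (u * √(Real.log (σ + R + 1)))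
        ≤ q / (128 * P * l * (σ + 1)) * (((σ + 1) * t) * (128 * P * K)) := by gcongr
    have h5 : C ≤ C * t := le_mul_of_one_le_right hC0 ht
    linarith
  · intro x
    exact ⟨mul_nonneg ha0.le (hg2 x).1, (mul_le_of_le_one_left (hg2 x).1 ha2).trans (hg2 x).2⟩
  · rw [intervalIntegral.integral_const_mul, mul_comm]
    gcongr
  · intro n
    rw [coef_mul, norm_mul, Complex.norm_real, Real.norm_of_nonneg ha0.le]
    exact mul_le_of_le_one_right ha0.le (hg4 n)
  · intro N x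
    rw [fsum_mul, norm_mul, Complex.norm_real, Real.norm_of_nonneg ha0.le]
    exact (mul_le_of_le_one_left (norm_nonneg _) ha2).trans (hg5 N x)
  · refine le_trans (measure_mono (Set.inter_subset_inter_left _ ?_)) (hg6.trans ?_)
    · rintro x hx ⟨N, hN, h⟩
      refine hx ⟨N, hN, ?_⟩
      rw [fsum_mul, norm_mul, Complex.norm_real, Real.norm_of_nonneg ha0.le]
      refine le_trans ?_ (mul_le_mul_of_nonneg_left h ha0.le)
      have : l / K * (K / (16 * P)) = k + σ + 4 := by rw [hl]; field_simp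
      rw [mul_sub, this]
      linarith
    · refine ENNReal.ofReal_le_ofReal ?_
      rw [hP, one_div_pow, mul_one_div]
      push_cast
      gcongr
      · norm_num
      · omega

lemma norm_fsum_le (f : ℝ → ℂ) (a : ℝ) (h : ∀ n, ‖coef f n‖ ≤ a) (N : ℕ) (x : ℝ) :
    ‖fsum f N x‖ ≤ (2 * N + 1) * a := by
  unfold fsum
  refine (norm_sum_le _ _).trans ?_
  calc _ ≤ ∑ _k ∈ Finset.Icc (-(N : ℤ)) N, a := by
        refine Finset.sum_le_sum fun k _ => ?_
        rw [norm_mul, norm_exp_mul _ (by simp), mul_one]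
        exact h k
    _ = _ := by
        rw [Finset.sum_const, Int.card_Icc, nsmul_eq_mul]
        have : ((N : ℤ) + 1 - -(N : ℤ)).toNat = 2 * N + 1 := by omega
        rw [this]; push_cast; ring

section Seq

variable {φ : ℝ → ℝ} {σ : ℕ → ℝ} {R : ℕ → ℕ} {a D : ℕ → ℝ} {G : ℕ → ℝ → ℝ}

lemma sigma_eq (h : ∀ k, σ (k + 1) = σ k + R k + D k) (h0 : σ 0 = 0) (k : ℕ) :
    σ k = ∑ i ∈ range k, ((R i : ℝ) + D i) := by
  induction k with
  | zero => simpa using h0
  | succ k ih => rw [h, Finset.sum_range_succ, ih, add_assoc]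

lemma lintegral_G (hH : ∀ k, Hump φ k (σ k) (R k) (a k) (D k) (G k)) (k : ℕ) (c : ℝ) (hc : 0 ≤ c) :
    ∫⁻ x in Set.Ioc 0 (2 * π), ENNReal.ofReal (c * G k x) ≤ ENNReal.ofReal (2 * π * (a k * c)) := by
  have hπ := Real.pi_pos
  rw [← ofReal_integral_eq_lintegral_ofReal
    ((((hH k).cont.const_mul c).integrableOn_Icc).mono_set Set.Ioc_subset_Icc_self)
    (Eventually.of_forall fun x => mul_nonneg hc ((hH k).bd x).1),
    ← intervalIntegral.integral_of_le (by positivity), intervalIntegral.integral_const_mul]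
  refine ENNReal.ofReal_le_ofReal ?_
  have := mul_le_mul_of_nonneg_left (hH k).int hc
  linarith

lemma tsum_geo_ne_top (c : ℝ) : ∑' k : ℕ, ENNReal.ofReal (c * (1 / 2) ^ k) ≠ ⊤ :=
  (summable_geometric_two.mul_left c).tsum_ofReal_ne_top

lemma lintegral_tsum_G (hH : ∀ k, Hump φ k (σ k) (R k) (a k) (D k) (G k)) (c : ℕ → ℝ)
    (hc : ∀ k, 0 ≤ c k) (hac : ∀ k, a k * c k ≤ 3 * (1 / 2) ^ k) :
    ∫⁻ x in Set.Ioc 0 (2 * π), ∑' k, ENNReal.ofReal (c k * G k x) ≠ ⊤ := by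
  rw [lintegral_tsum fun k =>
    (((hH k).cont.const_mul (c k)).measurable.ennreal_ofReal).aemeasurable]
  refine ne_top_of_le_ne_top (tsum_geo_ne_top (2 * π * 3)) (ENNReal.tsum_le_tsum fun k => ?_)
  refine (lintegral_G hH k _ (hc k)).trans (ENNReal.ofReal_le_ofReal ?_)
  rw [mul_assoc (2 * π)]
  exact mul_le_mul_of_nonneg_left (hac k) (by positivity)

lemma phi_point (hmono : MonotoneOn φ (Set.Ici 0)) (hH : ∀ k, Hump φ k (σ k) (R k) (a k) (D k) (G k))
    (hσ : ∀ k, σ k = ∑ i ∈ range k, ((R i : ℝ) + D i)) (x : ℝ) (hx : Summable fun k => G k x) :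
    ENNReal.ofReal (φ (∑' k, G k x)) ≤
      ENNReal.ofReal (φ 1) + ∑' k, ENNReal.ofReal ((σ k + D k) * G k x) := by
  have hG : ∀ k, 0 ≤ G k x := fun k => ((hH k).bd x).1
  have hu0 : 0 ≤ ∑' k, G k x := tsum_nonneg hG
  by_cases h1 : ∑' k, G k x < 1
  · exact le_add_right (ENNReal.ofReal_le_ofReal (hmono hu0 (show (0 : ℝ) ≤ 1 by norm_num) h1.le))
  refine le_add_left ?_
  have hex : ∃ k, ∑' i, G (i + k) x < 1 :=
    ((tendsto_sum_nat_add fun k => G k x).eventually (gt_mem_nhds one_pos)).exists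
  obtain ⟨k, hk⟩ : ∃ k, Nat.find hex = k + 1 := Nat.exists_eq_succ_of_ne_zero fun h => by
    have := Nat.find_spec hex
    rw [h] at this
    exact h1 this
  have h2 : ∑' i, G (i + (k + 1)) x < 1 := hk ▸ Nat.find_spec hex
  have h3 : 1 ≤ ∑' i, G (i + k) x := not_lt.mp (Nat.find_min hex (by omega))
  have hs : ∀ m, ∑ i ∈ range m, G i x ≤ ∑ i ∈ range m, (R i : ℝ) := fun m =>
    Finset.sum_le_sum fun i _ => ((hH i).bd x).2
  have hs2 : ∑ i ∈ range k, (R i : ℝ) ≤ σ k := by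
    rw [hσ]; exact Finset.sum_le_sum fun i _ => le_add_of_nonneg_right (hH i).D0
  have h4 := (hH k).phi _ _ hu0 (by
    rw [← hx.sum_add_tsum_nat_add (k + 1)]
    have := hs (k + 1)
    rw [Finset.sum_range_succ (fun i => (R i : ℝ))] at this
    linarith) h3 (by
    rw [← hx.sum_add_tsum_nat_add k]
    linarith [hs k])
  refine (ENNReal.ofReal_le_ofReal h4).trans ?_
  have hx' : Summable fun i => G (i + k) x := (summable_nat_add_iff k).mpr hx
  rw [← tsum_mul_left, ENNReal.ofReal_tsum_of_nonneg (fun i => mul_nonneg (hH k).D0 (hG _))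
    (hx'.mul_left _)]
  refine le_trans (ENNReal.tsum_le_tsum fun i => ENNReal.ofReal_le_ofReal ?_)
    (ENNReal.tsum_comp_le_tsum_of_injective (f := fun i => i + k) (add_left_injective k)
      fun j => ENNReal.ofReal ((σ j + D j) * G j x))
  refine mul_le_mul_of_nonneg_right ?_ (hG _)
  have hnn : ∀ j, 0 ≤ (R j : ℝ) + D j := fun j => add_nonneg (Nat.cast_nonneg _) (hH j).D0
  rcases Nat.eq_zero_or_pos i with h | h
  · subst h
    rw [zero_add]
    exact le_add_of_nonneg_left (by rw [hσ]; exact Finset.sum_nonneg fun j _ => hnn j)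
  · have h5 : (R k : ℝ) + D k ≤ σ (i + k) := by
      rw [hσ]
      exact Finset.single_le_sum (f := fun j => (R j : ℝ) + D j) (fun j _ => hnn j)
        (Finset.mem_range.mpr (by omega))
    linarith [(hH (i + k)).D0, (Nat.cast_nonneg (R k) : (0 : ℝ) ≤ R k)]

lemma big_point (hH : ∀ k, Hump φ k (σ k) (R k) (a k) (D k) (G k))
    (hσ : ∀ k, σ k = ∑ i ∈ range k, ((R i : ℝ) + D i)) (x : ℝ) (k N : ℕ) (hN : N ≤ R k) (S : ℂ)
    (hS : HasSum (fun i => fsum (fun x => (G i x : ℂ)) N x) S)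
    (h : k + σ k + 1 ≤ ‖fsum (fun x => (G k x : ℂ)) N x‖) : k ≤ ‖S‖ := by
  have hnn : ∀ j, 0 ≤ (R j : ℝ) + D j := fun j => add_nonneg (Nat.cast_nonneg _) (hH j).D0
  have e := hS.summable.sum_add_tsum_nat_add (k + 1)
  rw [hS.tsum_eq, Finset.sum_range_succ] at e
  have h1 : ‖∑ i ∈ range k, fsum (fun x => (G i x : ℂ)) N x‖ ≤ σ k := by
    rw [hσ]
    exact (norm_sum_le _ _).trans (Finset.sum_le_sum fun i _ =>
      ((hH i).fs N x).trans (le_add_of_nonneg_right (hH i).D0))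
  have h2 : ‖∑' i, fsum (fun x => (G (i + (k + 1)) x : ℂ)) N x‖ ≤ 1 := by
    have hg : HasSum (fun i : ℕ => (1 / 2 : ℝ) * (1 / 2) ^ i) (1 / 2 * 2) :=
      hasSum_geometric_two.mul_left _
    refine (tsum_of_norm_bounded hg fun i => ?_).trans (by norm_num)
    refine (norm_fsum_le _ _ (hH _).cf N x).trans ?_
    have h5 : (R k : ℝ) + D k ≤ σ (i + (k + 1)) := by
      rw [hσ]
      exact Finset.single_le_sum (f := fun j => (R j : ℝ) + D j) (fun j _ => hnn j)
        (Finset.mem_range.mpr (by omega))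
    have h6 : (N : ℝ) ≤ R k := by exact_mod_cast hN
    have h7 : (2 * N + 1) * a (i + (k + 1)) ≤ a (i + (k + 1)) * (2 * σ (i + (k + 1)) + 1) := by
      rw [mul_comm]
      exact mul_le_mul_of_nonneg_left (by linarith [(hH k).D0]) (hH _).a0
    refine h7.trans ((hH _).small.trans ?_)
    rw [← pow_succ']
    exact pow_le_pow_of_le_one (by norm_num) (by norm_num) (by omega)
  have e2 : fsum (fun x => (G k x : ℂ)) N x = S - ∑ i ∈ range k, fsum (fun x => (G i x : ℂ)) N x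
      - ∑' i, fsum (fun x => (G (i + (k + 1)) x : ℂ)) N x := by rw [← e]; ring
  rw [e2] at h
  have h3 := norm_sub_le (S - ∑ i ∈ range k, fsum (fun x => (G i x : ℂ)) N x)
    (∑' i, fsum (fun x => (G (i + (k + 1)) x : ℂ)) N x)
  have h4 := norm_sub_le S (∑ i ∈ range k, fsum (fun x => (G i x : ℂ)) N x)
  linarith

end Seq

theorem main (φ : ℝ → ℝ) (hmono : MonotoneOn φ (Set.Ici 0)) (h0 : ∀ u, 0 ≤ u → 0 ≤ φ u)
    (ho : φ =o[atTop] fun u => u * √(Real.log u)) :
    ∃ f : ℝ → ℂ, Measurable f ∧ IntegrableOn f (Set.Ioc 0 (2 * π)) ∧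
      ∫⁻ x in Set.Ioc 0 (2 * π), ENNReal.ofReal (φ ‖f x‖) < ⊤ ∧
      ∀ᵐ x ∂(volume.restrict (Set.Ioc 0 (2 * π))),
        ¬ BddAbove (Set.range fun N => ‖fsum f N x‖) := by
  have hπ := Real.pi_pos
  choose! R' a' D' G' hst using step φ hmono h0 ho
  let σ : ℕ → ℝ := fun k => Nat.rec 0 (fun k s => s + R' k s + D' k s) k
  have hσs : ∀ k, σ (k + 1) = σ k + R' k (σ k) + D' k (σ k) := fun k => rfl
  have hσ0 : ∀ k, 0 ≤ σ k := by
    intro k
    induction k with
    | zero => exact le_rfl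
    | succ k ih => rw [hσs]; have := (hst k _ ih).D0; positivity
  obtain ⟨R, hR⟩ : ∃ R : ℕ → ℕ, R = fun k => R' k (σ k) := ⟨_, rfl⟩
  obtain ⟨a, ha⟩ : ∃ a : ℕ → ℝ, a = fun k => a' k (σ k) := ⟨_, rfl⟩
  obtain ⟨D, hD⟩ : ∃ D : ℕ → ℝ, D = fun k => D' k (σ k) := ⟨_, rfl⟩
  obtain ⟨G, hG⟩ : ∃ G : ℕ → ℝ → ℝ, G = fun k => G' k (σ k) := ⟨_, rfl⟩
  have hH : ∀ k, Hump φ k (σ k) (R k) (a k) (D k) (G k) := by
    intro k; rw [hR, ha, hD, hG]; exact hst k _ (hσ0 k)
  have hσ : ∀ k, σ k = ∑ i ∈ range k, ((R i : ℝ) + D i) :=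
    sigma_eq (fun k => by rw [hR, hD]) rfl
  clear_value σ
  have hG0 : ∀ k x, 0 ≤ G k x := fun k x => ((hH k).bd x).1
  have hq : ∀ k : ℕ, (0 : ℝ) < (1 / 2) ^ k := fun k => by positivity
  have ha1 : ∀ k, a k ≤ (1 / 2) ^ k := fun k => by
    have := mul_nonneg (hH k).a0 (hσ0 k)
    linarith [(hH k).small]
  set T : ℝ → ℝ≥0∞ := fun x => ∑' k, ENNReal.ofReal (G k x) with hT
  have hTm : Measurable T := Measurable.tsum fun k => (hH k).cont.measurable.ennreal_ofReal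
  have hTi : ∫⁻ x in Set.Ioc 0 (2 * π), T x ≠ ⊤ := by
    simpa using lintegral_tsum_G hH (fun _ => 1) (fun _ => zero_le_one)
      (fun k => by linarith [ha1 k, hq k])
  have hae : ∀ᵐ x ∂(volume.restrict (Set.Ioc 0 (2 * π))),
      (Summable fun k => G k x) ∧ (T x).toReal = ∑' k, G k x := by
    filter_upwards [ae_lt_top hTm hTi] with x hx
    have e : ∀ k, (ENNReal.ofReal (G k x)).toReal = G k x := fun k => ENNReal.toReal_ofReal (hG0 k x)
    refine ⟨?_, ?_⟩
    · simpa only [e] using ENNReal.summable_toReal hx.ne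
    · rw [hT]
      dsimp only
      rw [ENNReal.tsum_toReal_eq fun k => ENNReal.ofReal_ne_top]
      simp only [e]
  refine ⟨fun x => ((T x).toReal : ℂ), Complex.measurable_ofReal.comp hTm.ennreal_toReal,
    (integrable_toReal_of_lintegral_ne_top hTm.aemeasurable hTi).ofReal, ?_, ?_⟩
  · have h1 : ∫⁻ x in Set.Ioc 0 (2 * π), ENNReal.ofReal (φ ‖((T x).toReal : ℂ)‖) ≤
        ∫⁻ x in Set.Ioc 0 (2 * π),
          (ENNReal.ofReal (φ 1) + ∑' k, ENNReal.ofReal ((σ k + D k) * G k x)) := by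
      refine lintegral_mono_ae ?_
      filter_upwards [hae] with x hx
      rw [Complex.norm_real, Real.norm_of_nonneg ENNReal.toReal_nonneg, hx.2]
      exact phi_point hmono hH hσ x hx.1
    refine h1.trans_lt ?_
    rw [lintegral_add_left measurable_const, setLIntegral_const]
    refine ENNReal.add_lt_top.mpr ⟨ENNReal.mul_lt_top ENNReal.ofReal_lt_top measure_Ioc_lt_top,
      (lintegral_tsum_G hH _ (fun k => add_nonneg (hσ0 k) (hH k).D0) fun k => ?_).lt_top⟩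
    have := mul_nonneg (hH k).a0 (hσ0 k)
    linarith [(hH k).small, (hH k).aD, (hH k).a0]
  · have hcoef : ∀ n : ℤ, HasSum (fun k => coef (fun x => (G k x : ℂ)) n)
        (coef (fun x => ((T x).toReal : ℂ)) n) := by
      intro n
      unfold coef
      refine HasSum.mul_left _ ?_
      simp only [intervalIntegral.integral_of_le (show (0 : ℝ) ≤ 2 * π by positivity)]
      have hnorm : ∀ x : ℝ, ‖Complex.exp (-((n : ℂ) * x * Complex.I))‖ = 1 := fun x => by
        rw [← neg_mul]; exact norm_exp_mul _ (by simp)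
      have h := hasSum_integral_of_summable_integral_norm (μ := volume.restrict (Set.Ioc 0 (2 * π)))
        (F := fun k (x : ℝ) => (G k x : ℂ) * Complex.exp (-((n : ℂ) * x * Complex.I)))
        (fun k => by
          have := (hH k).cont
          exact (Continuous.integrableOn_Icc (by fun_prop)).mono_set Set.Ioc_subset_Icc_self)
        (by
          refine Summable.of_nonneg_of_le (fun k => integral_nonneg fun x => norm_nonneg _)
            (fun k => ?_) (summable_geometric_two.mul_left (2 * π))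
          simp only [norm_mul, hnorm, mul_one, Complex.norm_real, Real.norm_of_nonneg (hG0 k _)]
          rw [← intervalIntegral.integral_of_le (by positivity)]
          exact (hH k).int.trans (mul_le_mul_of_nonneg_left (ha1 k) (by positivity)))
      have e : ∫ x in Set.Ioc 0 (2 * π),
          ((T x).toReal : ℂ) * Complex.exp (-((n : ℂ) * x * Complex.I)) = ∫ x in Set.Ioc 0 (2 * π),
          ∑' k, (G k x : ℂ) * Complex.exp (-((n : ℂ) * x * Complex.I)) := by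
        refine integral_congr_ae ?_
        filter_upwards [hae] with x hx
        rw [tsum_mul_right, hx.2, Complex.ofReal_tsum]
      rw [e]
      exact h
    have hfs : ∀ N x, HasSum (fun k => fsum (fun x => (G k x : ℂ)) N x)
        (fsum (fun x => ((T x).toReal : ℂ)) N x) := fun N x =>
      hasSum_sum fun n _ => (hcoef n).mul_right _
    have hBC := ae_eventually_notMem (μ := volume.restrict (Set.Ioc 0 (2 * π)))
      (s := fun k => {x | ¬ ∃ N ≤ R k, k + σ k + 1 ≤ ‖fsum (fun x => (G k x : ℂ)) N x‖})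
      (ne_top_of_le_ne_top (tsum_geo_ne_top 110) (ENNReal.tsum_le_tsum fun k => by
        rw [Measure.restrict_apply' measurableSet_Ioc]
        exact (hH k).bad))
    filter_upwards [hBC] with x hx
    rintro ⟨B, hB⟩
    obtain ⟨k, hk1, hk2⟩ := (hx.and (tendsto_natCast_atTop_atTop.eventually_gt_atTop B)).exists
    obtain ⟨N, hN, h⟩ := not_not.mp hk1
    have h1 := big_point hH hσ x k N hN _ (hfs N x) h
    have h2 := hB ⟨N, rfl⟩
    exact absurd (h1.trans h2) (not_le.mpr hk2)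

end Vale.Agent.P091
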